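import Vale.Agent.P004G.H3.Tw0
import Vale.Agent.P004G.H3.Tw1
import Vale.Agent.P004.B
import Vale.Agent.P004.C0
import Vale.Agent.P004.E

/-!
# P004G/H3: `StTw0`, `StTw1` unconditionally
-/

namespace P004G

variable [Crv]

theorem pfTw0 : StTw0 := H3.pfTw0_of (pfPois P004.pfTw) P004.pfKer

theorem pfTw1 : StTw1 := H3.pfTw1_of pfCoef P004.pfDiv pfTw0

end P004G
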