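import Vale.Agent.P004G.H3.Edge1
import Vale.Agent.P004G.H3.I2
import Vale.Agent.P004.H3.Edge2

/-!
# P004G/H3: the square trick, part 2: the recursion with the gain `π(P)`
-/

open Real MeasureTheory Set
open scoped ENNReal

namespace P004G.H3

export P004.H3 (prs sq_mul_inj)

open P004G.H1

theorem abs_eq_natAbs (m : ℤ) : |(m : ℝ)| = (m.natAbs : ℝ) := by
  rw [Nat.cast_natAbs]
  push_cast
  rfl

variable [Crv]

/-- the positivity step for an arbitrary finite set of integers `|m| ≤ H` -/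
theorem sumS_gen (hC : StCoef) (hP : StPair) (hK : StKer) :
    ∃ C : ℝ, 0 < C ∧ ∀ (S : Finset ℤ) (r : ℕ) (H u : ℝ), 0 < H → (∀ m ∈ S, |(m : ℝ)| ≤ H) → 0 < u →
      ENNReal.ofReal (∑ m ∈ S, Uf m r u ^ 2) ≤
        ENNReal.ofReal (C * H) * (ENNReal.ofReal |Aj H r 0 u| +
          ∑' j : ℕ, (ENNReal.ofReal |Aj H r (j + 1) u| + ENNReal.ofReal |Aj H r (-(j + 1)) u|)) := by
  refine ⟨1 / c0, by have := c0_pos; positivity, fun S r H u hH hS hu => ?_⟩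
  have hc := c0_pos
  have hW : ∀ h : ℤ, Uf h r u ^ 2 ≤ (∑' n, |wt r u n|) ^ 2 := by
    intro h
    have h0 : Summable fun n : ℕ => |wt r u n| := by
      have := summable_wt hC r hu 0
      simpa using this
    have h1 : |Uf h r u| ≤ ∑' n, |wt r u n| := by
      rw [Uf_eq]
      have h2 : ∀ n, ‖wt r u n * chi h n‖ ≤ |wt r u n| := fun n => by
        rw [norm_mul, Real.norm_eq_abs, Real.norm_eq_abs]
        exact mul_le_of_le_one_right (abs_nonneg _) (abs_chi_le _ _)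
      exact tsum_of_norm_bounded h0.hasSum h2
    rw [← sq_abs (Uf h r u)]
    exact pow_le_pow_left₀ (abs_nonneg _) h1 2
  have hsum : Summable fun h : ℤ => ah H h * Uf h r u ^ 2 := by
    refine Summable.of_nonneg_of_le (fun h => mul_nonneg (ah_nonneg H h) (sq_nonneg _))
      (fun h => mul_le_mul_of_nonneg_left (hW h) (ah_nonneg H h))
      ((summable_ah hH).mul_right _)
  have hlow : c0 * ∑ m ∈ S, Uf m r u ^ 2 ≤ ∑' h : ℤ, ah H h * Uf h r u ^ 2 := by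
    rw [Finset.mul_sum]
    have h1 : ∑ m ∈ S, c0 * Uf m r u ^ 2 ≤ ∑ m ∈ S, ah H m * Uf m r u ^ 2 := by
      refine Finset.sum_le_sum fun m hm => ?_
      refine mul_le_mul_of_nonneg_right ?_ (sq_nonneg _)
      exact c0_le_int hH (hS m hm)
    refine h1.trans ?_
    exact hsum.sum_le_tsum _ fun h _ => mul_nonneg (ah_nonneg H h) (sq_nonneg _)
  rw [S_eq hC hP hK hH r hu, tsum_congr (Aj_eq hC H r u)] at hlow
  have habs : ENNReal.ofReal (∑' j : ℤ, Aj H r j u) ≤ ∑' j : ℤ, ENNReal.ofReal |Aj H r j u| := by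
    by_cases hs : Summable fun j : ℤ => |Aj H r j u|
    · rw [← ENNReal.ofReal_tsum_of_nonneg (fun j => abs_nonneg _) hs]
      refine ENNReal.ofReal_le_ofReal ?_
      refine Summable.tsum_le_tsum (fun j => le_abs_self _) ?_ hs
      exact Summable.of_abs hs
    · have : ¬ Summable fun j : ℤ => Aj H r j u := fun h => hs h.abs
      rw [tsum_eq_zero_of_not_summable this]
      simp
  calc ENNReal.ofReal (∑ m ∈ S, Uf m r u ^ 2)
      ≤ ENNReal.ofReal (1 / c0 * H) * ENNReal.ofReal (∑' j : ℤ, Aj H r j u) := by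
        rw [← ENNReal.ofReal_mul (by positivity)]
        refine ENNReal.ofReal_le_ofReal ?_
        rw [one_div, inv_mul_eq_div, div_mul_eq_mul_div, le_div_iff₀ hc]
        linarith
    _ ≤ _ := by
        rw [← tsum_abs_Aj]
        gcongr

open I2Mod in
/-- the positivity step integrated -/
theorem int_le_gen {Cs : ℝ}
    (hS : ∀ (S : Finset ℤ) (r : ℕ) (H u : ℝ), 0 < H → (∀ m ∈ S, |(m : ℝ)| ≤ H) → 0 < u →
      ENNReal.ofReal (∑ m ∈ S, Uf m r u ^ 2) ≤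
        ENNReal.ofReal (Cs * H) * (ENNReal.ofReal |Aj H r 0 u| +
          ∑' j : ℕ, (ENNReal.ofReal |Aj H r (j + 1) u| + ENNReal.ofReal |Aj H r (-(j + 1)) u|)))
    (S : Finset ℤ) (r : ℕ) (H θ a : ℝ) (hH : 0 < H) (hSH : ∀ m ∈ S, |(m : ℝ)| ≤ H) (ha : 0 ≤ a) :
    ∑ m ∈ S, ∫⁻ u in Ioi a, ENNReal.ofReal (Uf m r u ^ 2 * u ^ (1 + 2 * θ)) ≤
      ENNReal.ofReal (Cs * H) * (TI H θ a r 0 +
        ∑' j : ℕ, (TI H θ a r (j + 1) + TI H θ a r (-(j + 1)))) := by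
  have hm : ∀ j : ℤ, Measurable fun u : ℝ => ENNReal.ofReal (|Aj H r j u| * u ^ (1 + 2 * θ)) := by
    intro j
    apply ENNReal.measurable_ofReal.comp
    apply Measurable.mul
    · exact (measurable_Aj H r j).abs
    · exact measurable_id.pow_const _
  have hUm : ∀ m : ℤ, Measurable fun u : ℝ =>
      ENNReal.ofReal (Uf m r u ^ 2 * u ^ (1 + 2 * θ)) := by
    intro m
    apply ENNReal.measurable_ofReal.comp
    exact ((measurable_Uf _ _).pow_const 2).mul (measurable_id.pow_const _)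
  rw [← lintegral_finsetSum _ fun m _ => hUm m]
  calc ∫⁻ u in Ioi a, ∑ m ∈ S, ENNReal.ofReal (Uf m r u ^ 2 * u ^ (1 + 2 * θ))
      ≤ ∫⁻ u in Ioi a, ENNReal.ofReal (Cs * H) *
          (ENNReal.ofReal (|Aj H r 0 u| * u ^ (1 + 2 * θ)) +
            ∑' j : ℕ, (ENNReal.ofReal (|Aj H r (j + 1) u| * u ^ (1 + 2 * θ)) +
              ENNReal.ofReal (|Aj H r (-(j + 1)) u| * u ^ (1 + 2 * θ)))) := by
        apply setLIntegral_mono' measurableSet_Ioi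
        intro u hu
        have hu0 : 0 < u := lt_of_le_of_lt ha hu
        have h := hS S r H u hH hSH hu0
        have hpow : (0 : ℝ) ≤ u ^ (1 + 2 * θ) := by positivity
        have e : ∑ m ∈ S, ENNReal.ofReal (Uf m r u ^ 2 * u ^ (1 + 2 * θ)) =
            ENNReal.ofReal (∑ m ∈ S, Uf m r u ^ 2) * ENNReal.ofReal (u ^ (1 + 2 * θ)) := by
          rw [← ENNReal.ofReal_mul' hpow, Finset.sum_mul,
            ENNReal.ofReal_sum_of_nonneg fun m _ => by positivity]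
        rw [e]
        calc ENNReal.ofReal (∑ m ∈ S, Uf m r u ^ 2) * ENNReal.ofReal (u ^ (1 + 2 * θ))
            ≤ (ENNReal.ofReal (Cs * H) * (ENNReal.ofReal |Aj H r 0 u| +
                ∑' j : ℕ, (ENNReal.ofReal |Aj H r (j + 1) u| + ENNReal.ofReal |Aj H r (-(j + 1)) u|))) *
                  ENNReal.ofReal (u ^ (1 + 2 * θ)) := by gcongr
          _ = _ := by
            rw [mul_assoc, add_mul, ← ENNReal.tsum_mul_right]
            congr 2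
            · rw [ENNReal.ofReal_mul' hpow]
            · refine tsum_congr fun j => ?_
              rw [ENNReal.ofReal_mul' hpow, ENNReal.ofReal_mul' hpow, add_mul]
    _ = ENNReal.ofReal (Cs * H) * (TI H θ a r 0 +
        ∑' j : ℕ, (TI H θ a r (j + 1) + TI H θ a r (-(j + 1)))) := by
        have hm1 : ∀ j : ℕ, Measurable fun u : ℝ =>
            (ENNReal.ofReal (|Aj H r (j + 1) u| * u ^ (1 + 2 * θ)) +
              ENNReal.ofReal (|Aj H r (-(j + 1)) u| * u ^ (1 + 2 * θ))) :=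
          fun j => (hm (j + 1)).add (hm (-(j + 1)))
        have hm2 : Measurable fun u : ℝ => ∑' j : ℕ,
            (ENNReal.ofReal (|Aj H r (j + 1) u| * u ^ (1 + 2 * θ)) +
              ENNReal.ofReal (|Aj H r (-(j + 1)) u| * u ^ (1 + 2 * θ))) :=
          Measurable.tsum hm1
        have hm3 : Measurable fun u : ℝ => ENNReal.ofReal (|Aj H r 0 u| * u ^ (1 + 2 * θ)) +
            ∑' j : ℕ, (ENNReal.ofReal (|Aj H r (j + 1) u| * u ^ (1 + 2 * θ)) +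
              ENNReal.ofReal (|Aj H r (-(j + 1)) u| * u ^ (1 + 2 * θ))) := (hm 0).add hm2
        rw [lintegral_const_mul _ hm3, lintegral_add_left (hm 0),
          lintegral_tsum fun j : ℕ => (hm1 j).aemeasurable]
        congr 2
        refine tsum_congr fun j => ?_
        rw [lintegral_add_left (hm (j + 1))]
        rfl

theorem sq_mul_inj_int {p q : ℕ} {m n : ℤ} (hp : p.Prime) (hq : q.Prime) (hm : Squarefree m)
    (hn : Squarefree n) (h : (p : ℤ) ^ 2 * m = (q : ℤ) ^ 2 * n) : p = q ∧ m = n := by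
  have h1 := congrArg Int.natAbs h
  rw [Int.natAbs_mul, Int.natAbs_mul, Int.natAbs_pow, Int.natAbs_pow, Int.natAbs_natCast,
    Int.natAbs_natCast] at h1
  obtain ⟨h2, -⟩ := sq_mul_inj hp hq (Int.squarefree_natAbs.2 hm) (Int.squarefree_natAbs.2 hn) h1
  subst h2
  refine ⟨rfl, ?_⟩
  have h3 : ((p : ℤ) ^ 2) ≠ 0 := pow_ne_zero 2 (by exact_mod_cast hp.ne_zero)
  exact mul_left_cancel₀ h3 h

/-- the square trick: gain of a factor `π(P)` -/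
theorem gain (hC : StCoef) (X P r : ℕ) {θ a : ℝ} (hθ : 0 ≤ θ) (ha : 0 ≤ a) :
    ((prs P).card : ℝ≥0∞) * ∑ m ∈ sqZ X, ∫⁻ u in Ioi a,
        ENNReal.ofReal (Uf m r u ^ 2 * u ^ (1 + 2 * θ)) ≤
      6 * ∑ M ∈ ((prs P) ×ˢ (sqZ X)).image (fun t : ℕ × ℤ => (t.1 : ℤ) ^ 2 * t.2),
        ∫⁻ u in Ioi a, ENNReal.ofReal (Uf M r u ^ 2 * u ^ (1 + 2 * θ)) := by
  have himg : ∑ M ∈ ((prs P) ×ˢ (sqZ X)).image (fun t : ℕ × ℤ => (t.1 : ℤ) ^ 2 * t.2),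
        ∫⁻ u in Ioi a, ENNReal.ofReal (Uf M r u ^ 2 * u ^ (1 + 2 * θ)) =
      ∑ p ∈ prs P, ∑ m ∈ sqZ X, ∫⁻ u in Ioi a,
        ENNReal.ofReal (Uf ((p : ℤ) ^ 2 * m) r u ^ 2 * u ^ (1 + 2 * θ)) := by
    rw [Finset.sum_image, Finset.sum_product]
    intro x hx y hy hxy
    simp only [Finset.coe_product, Set.mem_prod, Finset.mem_coe, prs, sqZ, Finset.mem_filter] at hx hy
    have := sq_mul_inj_int hx.1.2 hy.1.2 hx.2.2 hy.2.2 hxy
    exact Prod.ext this.1 this.2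
  rw [himg]
  calc ((prs P).card : ℝ≥0∞) * ∑ m ∈ sqZ X, ∫⁻ u in Ioi a,
        ENNReal.ofReal (Uf m r u ^ 2 * u ^ (1 + 2 * θ))
      = ∑ p ∈ prs P, ∑ m ∈ sqZ X, ∫⁻ u in Ioi a,
        ENNReal.ofReal (Uf m r u ^ 2 * u ^ (1 + 2 * θ)) := by
        rw [Finset.sum_const, nsmul_eq_mul]
    _ ≤ ∑ p ∈ prs P, 6 * ∑ m ∈ sqZ X, ∫⁻ u in Ioi a,
        ENNReal.ofReal (Uf ((p : ℤ) ^ 2 * m) r u ^ 2 * u ^ (1 + 2 * θ)) := by
        refine Finset.sum_le_sum fun p hp => ?_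
        rw [Finset.mul_sum]
        refine Finset.sum_le_sum fun m _ => ?_
        have hpp : p.Prime := (Finset.mem_filter.1 hp).2
        exact sq_trick hC m r hpp hθ ha
    _ = _ := by rw [← Finset.mul_sum]

open I2Mod in
/-- the bound for one `r` -/
theorem key_gain (hC : StCoef) {Cs0 Ca C0 C₁ Cv E1 : ℝ} {Aa A0 Av k₀ : ℕ} (hCs0 : 0 < Cs0)
    (hCa : 0 < Ca) (hC0 : 0 < C0) (hCv : 0 < Cv) (hE1pos : 0 < E1)
    (hS : ∀ (S : Finset ℤ) (r : ℕ) (H u : ℝ), 0 < H → (∀ m ∈ S, |(m : ℝ)| ≤ H) → 0 < u →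
      ENNReal.ofReal (∑ m ∈ S, Uf m r u ^ 2) ≤
        ENNReal.ofReal (Cs0 * H) * (ENNReal.ofReal |Aj H r 0 u| +
          ∑' j : ℕ, (ENNReal.ofReal |Aj H r (j + 1) u| + ENNReal.ofReal |Aj H r (-(j + 1)) u|)))
    (hA : ∀ θ : ℝ, 0 < θ → θ ≤ 1 / 8 → ∀ (H : ℝ) (r j₁ j₂ : ℕ) (ε : ℤ), ε.natAbs = 1 → 0 < H →
      0 < r → Squarefree j₁ → 0 < j₂ →
      ∫⁻ u in Ioi (0 : ℝ),
        ENNReal.ofReal (|Aj H r (ε * ((j₁ * j₂ ^ 2 : ℕ) : ℤ)) u| * u ^ (1 + 2 * θ)) ≤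
        ENNReal.ofReal (Ca * (1 / θ) ^ Aa * dv r ^ Aa * dv j₂ ^ Aa *
          (((j₁ * j₂ ^ 2 : ℕ) : ℝ) * H) ^ (-1 / 2 + θ)) * (Jm j₁ + 1))
    (h0 : ∀ θ : ℝ, 0 < θ → θ ≤ 1 / 8 → ∀ (H : ℝ) (r : ℕ), 0 < H → 0 < r →
      ∫⁻ u in Ioi (0 : ℝ), ENNReal.ofReal (|Aj H r 0 u| * u ^ (1 + 2 * θ)) ≤
        ENNReal.ofReal (C0 * (1 / θ) ^ A0))
    (hT : ∀ (L θ H : ℝ) (X r : ℕ) (ε : ℤ), ε.natAbs = 1 → 1 ≤ X → 1 ≤ L →
      Real.log (k₀ * X) ≤ L → 0 < θ → θ ≤ 1 / 8 → (k₀ * X : ℝ) ≤ H → 0 < r →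
      ∑' j : ℕ, (if (X : ℝ) ^ 2 * (C₁ * L) ^ 17 < j * H then
        ∫⁻ u in Ioi (1 / (3 * (k₀ * X)) : ℝ),
          ENNReal.ofReal (|Aj H r (ε * j) u| * u ^ (1 + 2 * θ)) else 0) ≤ 1)
    (hV : ∀ θ : ℝ, 0 < θ → θ ≤ 1 →
      ∑' n : ℕ, ENNReal.ofReal (dv n ^ Aa * (n : ℝ) ^ (-1 - θ)) ≤
        ENNReal.ofReal (Cv * (1 / θ) ^ Av))
    (L θ H : ℝ) (X P : ℕ) (hX : 1 ≤ X) (hL : 1 ≤ L) (hlog : Real.log (k₀ * X) ≤ L)
    (hθ : 0 < θ) (hθ8 : θ ≤ 1 / 8) (hHdef : H = (P : ℝ) ^ 2 * X) (hXH : (X : ℝ) ≤ H)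
    (hkXH : (k₀ * X : ℝ) ≤ H)
    (hBpos : 0 < (X : ℝ) ^ 2 * (C₁ * L) ^ 17)
    (hBE : ((X : ℝ) ^ 2 * (C₁ * L) ^ 17) ^ (2 * θ) ≤ E1) (r : ℕ) (hr : 0 < r) :
    ((prs P).card : ℝ≥0∞) * ∫⁻ u in Ioi (1 / (3 * (k₀ * X)) : ℝ),
        ENNReal.ofReal ((∑ m ∈ sqZ X, Uf m r u ^ 2) * u ^ (1 + 2 * θ)) ≤
      ENNReal.ofReal (12 * Cs0 * (C0 + 1 + Ca * E1 * Cv) * (1 / θ) ^ (A0 + (Aa + Av)) *
        dv r ^ Aa) * (ENNReal.ofReal H + ENNReal.ofReal (√H) *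
        ∑ j ∈ sqf ⌊(X : ℝ) ^ 2 * (C₁ * L) ^ 17 / H⌋₊,
          ENNReal.ofReal (1 / √(j : ℝ)) * (Jm j + 1)) := by
  have hXR : (1 : ℝ) ≤ X := by exact_mod_cast hX
  have hH1 : 1 ≤ H := hXR.trans hXH
  have hθinv : 1 ≤ 1 / θ := by rw [le_div_iff₀ hθ]; linarith
  have htail0 := fun (ε : ℤ) (hε : ε.natAbs = 1) => hT L θ H X r ε hε hX hL hlog hθ hθ8 hkXH hr
  obtain ⟨Cs, hCsdef⟩ : ∃ Cs : ℝ, Cs = 12 * Cs0 := ⟨_, rfl⟩
  obtain ⟨N, hN⟩ : ∃ N : ℕ, N = A0 + (Aa + Av) := ⟨_, rfl⟩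
  obtain ⟨Z, hZ⟩ : ∃ Z : ℝ, Z = Cs * (C0 + 1 + Ca * E1 * Cv) := ⟨_, rfl⟩
  obtain ⟨B, hB⟩ : ∃ B : ℝ, B = (X : ℝ) ^ 2 * (C₁ * L) ^ 17 := ⟨_, rfl⟩
  obtain ⟨a, ha⟩ : ∃ a : ℝ, a = 1 / (3 * (k₀ * X)) := ⟨_, rfl⟩
  obtain ⟨S₁, hS1⟩ : ∃ S₁ : ℝ≥0∞, S₁ =
      ∑ j ∈ sqf ⌊B / H⌋₊, ENNReal.ofReal (1 / √(j : ℝ)) * (Jm j + 1) := ⟨_, rfl⟩
  obtain ⟨Br, hBr⟩ : ∃ Br : ℝ≥0∞, Br = ENNReal.ofReal H + ENNReal.ofReal (√H) * S₁ := ⟨_, rfl⟩
  rw [← hB] at hBpos hBE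
  simp only [← hB, ← ha] at htail0
  rw [← hCsdef, ← hN, ← hZ, ← hB, ← ha, ← hS1, ← hBr]
  have hCs : 0 < Cs := by rw [hCsdef]; positivity
  have ha0 : 0 ≤ a := by rw [ha]; positivity
  have hZpos : 0 < Z := by rw [hZ]; positivity
  have hdr : 1 ≤ dv r := dv_one_le hr
  have hdrA : 1 ≤ dv r ^ Aa := one_le_pow₀ hdr
  have hstart : ((prs P).card : ℝ≥0∞) * ∫⁻ u in Ioi a,
      ENNReal.ofReal ((∑ m ∈ sqZ X, Uf m r u ^ 2) * u ^ (1 + 2 * θ)) ≤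
      ENNReal.ofReal (6 * Cs0 * H) * (TI H θ a r 0 +
        ∑' j : ℕ, (TI H θ a r (j + 1) + TI H θ a r (-(j + 1)))) := by
    have hUm : ∀ m : ℤ, Measurable fun u : ℝ =>
        ENNReal.ofReal (Uf m r u ^ 2 * u ^ (1 + 2 * θ)) := by
      intro m
      apply ENNReal.measurable_ofReal.comp
      exact ((measurable_Uf _ _).pow_const 2).mul (measurable_id.pow_const _)
    have e1 : ∫⁻ u in Ioi a, ENNReal.ofReal ((∑ m ∈ sqZ X, Uf m r u ^ 2) * u ^ (1 + 2 * θ)) =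
        ∑ m ∈ sqZ X, ∫⁻ u in Ioi a, ENNReal.ofReal (Uf m r u ^ 2 * u ^ (1 + 2 * θ)) := by
      rw [← lintegral_finsetSum _ fun m _ => hUm m]
      apply setLIntegral_congr_fun measurableSet_Ioi
      intro u hu
      have hu0 : 0 < u := lt_of_le_of_lt ha0 hu
      simp only
      rw [Finset.sum_mul, ENNReal.ofReal_sum_of_nonneg fun m _ => by positivity]
    rw [e1]
    refine (gain hC X P r hθ.le ha0).trans ?_
    have h6 := int_le_gen hS (((prs P) ×ˢ (sqZ X)).image (fun t : ℕ × ℤ => (t.1 : ℤ) ^ 2 * t.2)) r H θ a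
      (by linarith) (by
        intro M hM
        rw [Finset.mem_image] at hM
        obtain ⟨⟨p, m⟩, ht, rfl⟩ := hM
        rw [Finset.mem_product] at ht
        have hp : p ≤ P := by
          have := (Finset.mem_filter.1 ht.1).1
          rw [Finset.mem_range] at this
          exact Nat.lt_succ_iff.1 this
        have hm : m.natAbs ≤ X := (mem_sqZ.1 ht.2).1
        push_cast
        rw [hHdef, abs_mul, abs_of_nonneg (by positivity : (0 : ℝ) ≤ (p : ℝ) ^ 2)]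
        have hp' : (p : ℝ) ≤ P := by exact_mod_cast hp
        have hm' : |(m : ℝ)| ≤ X := by
          rw [abs_eq_natAbs]
          exact_mod_cast hm
        gcongr) ha0
    calc 6 * ∑ M ∈ ((prs P) ×ˢ (sqZ X)).image (fun t : ℕ × ℤ => (t.1 : ℤ) ^ 2 * t.2),
          ∫⁻ u in Ioi a, ENNReal.ofReal (Uf M r u ^ 2 * u ^ (1 + 2 * θ))
        ≤ 6 * (ENNReal.ofReal (Cs0 * H) * (TI H θ a r 0 +
            ∑' j : ℕ, (TI H θ a r (j + 1) + TI H θ a r (-(j + 1))))) := by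
          gcongr
      _ = _ := by
          rw [← mul_assoc, show (6 : ℝ≥0∞) = ENNReal.ofReal 6 by simp,
            ← ENNReal.ofReal_mul (by norm_num)]
          congr 2
          ring
  refine hstart.trans ?_
  have hzero : TI H θ a r 0 ≤ ENNReal.ofReal (C0 * (1 / θ) ^ A0) :=
    (TI_mono H θ a ha0 r 0).trans (h0 θ hθ hθ8 H r (by linarith) hr)
  obtain ⟨W, hW⟩ : ∃ W : ℝ≥0∞, W = ENNReal.ofReal (Ca * (1 / θ) ^ Aa * dv r ^ Aa *
      (B ^ (2 * θ) * (1 / √H)) * (Cv * (1 / θ) ^ Av)) * S₁ := ⟨_, rfl⟩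
  have hε : ∀ ε : ℤ, ε.natAbs = 1 → ∑' j : ℕ, TI H θ a r (ε * ((j + 1 : ℕ) : ℤ)) ≤ 1 + W := by
    intro ε hε
    have hsplit := split_sum (fun j : ℕ => TI H θ a r (ε * (j : ℤ)))
      (fun j : ℕ => TI H θ 0 r (ε * (j : ℤ)))
      (fun j : ℕ => B < j * H) ⌊B / H⌋₊ (fun j => TI_mono H θ a ha0 r (ε * j)) (by
        intro j _ hj
        rw [not_lt] at hj
        apply Nat.le_floor
        rw [le_div_iff₀ (by linarith)]
        exact hj)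
    have htail : (∑' j : ℕ, if B < j * H then TI H θ a r (ε * (j : ℤ)) else 0) ≤ 1 := htail0 ε hε
    have hsmall := small_sum Ca Cv Aa Av hCa θ H B hθ hH1 hBpos r ε
      (fun j₁ j₂ hsq hj₂ => hA θ hθ hθ8 H r j₁ j₂ ε hε (by linarith) hr hsq hj₂)
      (hV θ hθ (by linarith))
    rw [← hS1, ← hW] at hsmall
    exact hsplit.trans (add_le_add htail hsmall)
  have hsumj : ∑' j : ℕ, (TI H θ a r (j + 1) + TI H θ a r (-(j + 1))) ≤ 2 * (1 + W) := by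
    rw [ENNReal.tsum_add, two_mul]
    refine add_le_add ?_ ?_
    · have := hε 1 rfl
      simpa only [one_mul, Nat.cast_add, Nat.cast_one] using this
    · have := hε (-1) rfl
      simpa only [neg_one_mul, Nat.cast_add, Nat.cast_one] using this
  calc ENNReal.ofReal (6 * Cs0 * H) * (TI H θ a r 0 +
        ∑' j : ℕ, (TI H θ a r (j + 1) + TI H θ a r (-(j + 1))))
      ≤ ENNReal.ofReal (6 * Cs0 * H) * (2 * (ENNReal.ofReal (C0 * (1 / θ) ^ A0) + (1 + W))) := by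
        refine mul_le_mul' le_rfl ?_
        rw [mul_add]
        refine add_le_add (hzero.trans ?_) hsumj
        rw [two_mul]
        exact le_self_add
    _ = ENNReal.ofReal (Cs * H) * (ENNReal.ofReal (C0 * (1 / θ) ^ A0) + (1 +
        ENNReal.ofReal (Ca * (1 / θ) ^ Aa * dv r ^ Aa * (B ^ (2 * θ) * (1 / √H)) *
          (Cv * (1 / θ) ^ Av)) * S₁)) := by
        rw [← mul_assoc, show (2 : ℝ≥0∞) = ENNReal.ofReal 2 by simp,
          ← ENNReal.ofReal_mul (by positivity), ← hW]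
        congr 2
        rw [hCsdef]
        ring
    _ ≤ ENNReal.ofReal (Cs * H) * (ENNReal.ofReal ((C0 + 1) * (1 / θ) ^ N * dv r ^ Aa) +
        ENNReal.ofReal ((Ca * E1 * Cv) * (1 / θ) ^ N * dv r ^ Aa * (1 / √H)) * S₁) := by
        rw [← add_assoc]
        have i1 : ENNReal.ofReal (C0 * (1 / θ) ^ A0) + 1 ≤
            ENNReal.ofReal ((C0 + 1) * (1 / θ) ^ N * dv r ^ Aa) := by
          rw [← ENNReal.ofReal_one, ← ENNReal.ofReal_add (by positivity) (by norm_num)]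
          apply ENNReal.ofReal_le_ofReal
          have h1 : (1 / θ) ^ A0 ≤ (1 / θ) ^ N := pow_le_pow_right₀ hθinv (by omega)
          have h2 : 1 ≤ (1 / θ) ^ N := one_le_pow₀ hθinv
          calc C0 * (1 / θ) ^ A0 + 1 ≤ C0 * (1 / θ) ^ N + (1 / θ) ^ N := by gcongr
            _ = (C0 + 1) * (1 / θ) ^ N * 1 := by ring
            _ ≤ (C0 + 1) * (1 / θ) ^ N * dv r ^ Aa := by gcongr
        have i2 : ENNReal.ofReal (Ca * (1 / θ) ^ Aa * dv r ^ Aa * (B ^ (2 * θ) * (1 / √H)) *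
            (Cv * (1 / θ) ^ Av)) ≤
            ENNReal.ofReal ((Ca * E1 * Cv) * (1 / θ) ^ N * dv r ^ Aa * (1 / √H)) := by
          apply ENNReal.ofReal_le_ofReal
          have h1 : (1 / θ) ^ (Aa + Av) ≤ (1 / θ) ^ N := pow_le_pow_right₀ hθinv (by omega)
          calc Ca * (1 / θ) ^ Aa * dv r ^ Aa * (B ^ (2 * θ) * (1 / √H)) * (Cv * (1 / θ) ^ Av)
              ≤ Ca * (1 / θ) ^ Aa * dv r ^ Aa * (E1 * (1 / √H)) * (Cv * (1 / θ) ^ Av) := by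
                gcongr
            _ = Ca * E1 * Cv * (1 / θ) ^ (Aa + Av) * dv r ^ Aa * (1 / √H) := by
                rw [pow_add]; ring
            _ ≤ _ := by gcongr
        exact mul_le_mul' le_rfl (add_le_add i1 (mul_le_mul' i2 le_rfl))
    _ ≤ ENNReal.ofReal (Z * (1 / θ) ^ N * dv r ^ Aa) * Br := by
        have hsqrt : H * (1 / √H) = √H := by
          rw [mul_one_div, Real.div_sqrt]
        rw [hBr, mul_add, mul_add, ← mul_assoc, ← mul_assoc, ← ENNReal.ofReal_mul (by positivity),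
          ← ENNReal.ofReal_mul (by positivity), ← ENNReal.ofReal_mul (by positivity),
          ← ENNReal.ofReal_mul (by positivity)]
        refine add_le_add (ENNReal.ofReal_le_ofReal ?_)
          (mul_le_mul' (ENNReal.ofReal_le_ofReal ?_) le_rfl)
        · rw [hZ]
          have : 0 ≤ Cs * (Ca * E1 * Cv) * H * ((1 / θ) ^ N * dv r ^ Aa) := by positivity
          nlinarith
        · have e : Cs * H * (Ca * E1 * Cv * (1 / θ) ^ N * dv r ^ Aa * (1 / √H)) =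
            Cs * (Ca * E1 * Cv) * ((1 / θ) ^ N * dv r ^ Aa) * (H * (1 / √H)) := by ring
          rw [e, hsqrt, hZ]
          have : 0 ≤ Cs * (C0 + 1) * √H * ((1 / θ) ^ N * dv r ^ Aa) := by positivity
          nlinarith

open I2Mod in
/-- **The recursion with the gain `π(P)`.** -/
theorem rec_gain (hC : StCoef) (hPair : StPair) (hK : StKer) (hDecomp : StDecomp) (hAj : StAj)
    (hA0 : StA0) (hTail : StTail) (hDiv : StDiv) :
    ∃ k₀ : ℕ, 1 ≤ k₀ ∧ ∃ C₁ : ℝ, 1 ≤ C₁ ∧ ∃ C : ℝ, 1 ≤ C ∧ ∃ A : ℕ,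
      ∀ (L : ℝ) (X P : ℕ), 1 ≤ X → 1 ≤ L → Real.log (k₀ * X) ≤ L → k₀ ≤ P →
      ((prs P).card : ℝ≥0∞) * sumJ X ≤ ENNReal.ofReal (C * L ^ A) *
        (ENNReal.ofReal ((P : ℝ) ^ 2 * X) + ENNReal.ofReal (√((P : ℝ) ^ 2 * X)) *
        ∑ j ∈ sqf ⌊(X : ℝ) ^ 2 * (C₁ * L) ^ 17 / ((P : ℝ) ^ 2 * X)⌋₊,
          ENNReal.ofReal (1 / √(j : ℝ)) * (Jm j + 1)) := by
  obtain ⟨k₀, hk₀, Cd, hCd, Ad, hD⟩ := hDecomp
  have hk₀R : (1 : ℝ) ≤ k₀ := by exact_mod_cast hk₀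
  obtain ⟨Cs0, hCs0, hS⟩ := sumS_gen hC hPair hK
  obtain ⟨Ca, hCa, Aa, hA⟩ := hAj
  obtain ⟨C0, hC0, A0, h0⟩ := hA0
  obtain ⟨C₁', hC₁', hT'⟩ := hTail
  obtain ⟨C₁, hC₁def⟩ : ∃ C₁ : ℝ, C₁ = k₀ * C₁' := ⟨_, rfl⟩
  have hC₁ : 1 ≤ C₁ := by rw [hC₁def]; nlinarith
  have hT : ∀ (L θ H : ℝ) (X r : ℕ) (ε : ℤ), ε.natAbs = 1 → 1 ≤ X → 1 ≤ L →
      Real.log (k₀ * X) ≤ L → 0 < θ → θ ≤ 1 / 8 → (k₀ * X : ℝ) ≤ H → 0 < r →
      ∑' j : ℕ, (if (X : ℝ) ^ 2 * (C₁ * L) ^ 17 < j * H then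
        ∫⁻ u in Ioi (1 / (3 * (k₀ * X)) : ℝ),
          ENNReal.ofReal (|Aj H r (ε * j) u| * u ^ (1 + 2 * θ)) else 0) ≤ 1 := by
    intro L θ H X r ε hε hX hL hlog hθ hθ8 hXH hr
    have h := hT' L θ H (k₀ * X) r ε hε (Nat.mul_pos hk₀ hX) hL (by push_cast; exact hlog) hθ hθ8
      (by push_cast; exact hXH) hr
    push_cast at h
    refine le_trans (ENNReal.tsum_le_tsum fun j => ?_) h
    by_cases hc : (X : ℝ) ^ 2 * (C₁ * L) ^ 17 < j * H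
    · have hle : ((k₀ : ℝ) * X) ^ 2 * (C₁' * L) ^ 17 ≤ (X : ℝ) ^ 2 * (C₁ * L) ^ 17 := by
        rw [hC₁def]
        have e1 : ((k₀ : ℝ) * X) ^ 2 * (C₁' * L) ^ 17 =
          (k₀ : ℝ) ^ 2 * ((X : ℝ) ^ 2 * (C₁' * L) ^ 17) := by ring
        have e2 : (X : ℝ) ^ 2 * (k₀ * C₁' * L) ^ 17 =
          (k₀ : ℝ) ^ 17 * ((X : ℝ) ^ 2 * (C₁' * L) ^ 17) := by ring
        rw [e1, e2]
        have e3 : (k₀ : ℝ) ^ 2 ≤ (k₀ : ℝ) ^ 17 := pow_le_pow_right₀ hk₀R (by norm_num)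
        have e4 : 0 ≤ (X : ℝ) ^ 2 * (C₁' * L) ^ 17 := by positivity
        exact mul_le_mul_of_nonneg_right e3 e4
      rw [if_pos hc, if_pos (lt_of_le_of_lt hle hc)]
    · rw [if_neg hc]
      exact zero_le
  obtain ⟨Cv, hCv, Av, hV⟩ := hDiv.1 Aa
  obtain ⟨Cw, hCw, Aw, hW⟩ := hDiv.2 (2 + Aa)
  set Cs : ℝ := 12 * Cs0 with hCsdef
  have hCs : 0 < Cs := by positivity
  set E1 : ℝ := Real.exp ((19 + 17 * Real.log C₁) / 4) with hE1
  set Z : ℝ := Cs * (C0 + 1 + Ca * E1 * Cv) with hZ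
  set N : ℕ := A0 + (Aa + Av) with hN
  have hE1pos : 0 < E1 := Real.exp_pos _
  have hZpos : 0 < Z := by positivity
  refine ⟨k₀, hk₀, C₁, hC₁, max 1 (Cd * Real.exp 1 * Z * Cw * 8 ^ (Ad + N + Aw)), le_max_left _ _,
    Ad + N + Aw, ?_⟩
  intro L X P hX hL hlog hP1
  have hXR : (1 : ℝ) ≤ X := by exact_mod_cast hX
  have hkP : (k₀ : ℝ) ≤ P := by exact_mod_cast hP1
  have hPR : (1 : ℝ) ≤ P := hk₀R.trans hkP
  obtain ⟨H, hHdef⟩ : ∃ H : ℝ, H = (P : ℝ) ^ 2 * X := ⟨_, rfl⟩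
  rw [← hHdef]
  have hP2 : (1 : ℝ) ≤ (P : ℝ) ^ 2 := one_le_pow₀ hPR
  have hXH : (X : ℝ) ≤ H := by rw [hHdef]; nlinarith
  have hkXH : (k₀ * X : ℝ) ≤ H := by
    rw [hHdef]
    have : (k₀ : ℝ) ≤ (P : ℝ) ^ 2 := by nlinarith
    gcongr
  have hH1 : 1 ≤ H := hXR.trans hXH
  have hkX1 : (1 : ℝ) ≤ k₀ * X := by nlinarith
  set θ : ℝ := 1 / (8 * L) with hθdef
  have hθ : 0 < θ := by positivity
  have hθ8 : θ ≤ 1 / 8 := by
    rw [hθdef]
    apply one_div_le_one_div_of_le (by norm_num)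
    linarith
  have hθ1 : 1 / θ = 8 * L := by rw [hθdef, one_div_one_div]
  have hθinv : 1 ≤ 1 / θ := by rw [hθ1]; linarith
  have hlogkX : Real.log (k₀ * X) = Real.log k₀ + Real.log X :=
    Real.log_mul (by positivity) (by positivity)
  have hlogX : Real.log X ≤ L := by
    have := Real.log_nonneg hk₀R
    linarith
  have hlogX0 : 0 ≤ Real.log X := Real.log_nonneg hXR
  set B : ℝ := (X : ℝ) ^ 2 * (C₁ * L) ^ 17 with hB
  have hCL : 1 ≤ C₁ * L := by nlinarith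
  have hBpos : 0 < B := by positivity
  have hBE : B ^ (2 * θ) ≤ E1 := by
    rw [Real.rpow_def_of_pos hBpos, hE1]
    apply Real.exp_le_exp.2
    have hlogB : Real.log B = 2 * Real.log X + 17 * (Real.log C₁ + Real.log L) := by
      rw [hB, Real.log_mul (by positivity) (by positivity), Real.log_pow, Real.log_pow,
        Real.log_mul (by positivity) (by positivity)]
      norm_num
    have h1 : Real.log L ≤ L := (Real.log_le_sub_one_of_pos (by linarith)).trans (by linarith)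
    have h2 : 0 ≤ Real.log C₁ := Real.log_nonneg hC₁
    have h3 : Real.log B ≤ (19 + 17 * Real.log C₁) * L := by
      rw [hlogB]
      nlinarith
    calc Real.log B * (2 * θ) ≤ (19 + 17 * Real.log C₁) * L * (2 * θ) := by gcongr
      _ = (19 + 17 * Real.log C₁) / 4 := by
        rw [hθdef]; field_simp; ring
  have h3X : (3 * (k₀ * X) : ℝ) ^ (2 * θ) ≤ Real.exp 1 := by
    rw [Real.rpow_def_of_pos (by positivity)]
    apply Real.exp_le_exp.2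
    rw [Real.log_mul (by norm_num) (by positivity)]
    have h1 : Real.log 3 ≤ 2 := by
      have := Real.log_le_sub_one_of_pos (by norm_num : (0 : ℝ) < 3)
      linarith
    calc (Real.log 3 + Real.log (k₀ * X)) * (2 * θ) ≤ (2 + L) * (2 * θ) := by gcongr
      _ ≤ (3 * L) * (2 * θ) := by gcongr; linarith
      _ = 3 / 4 := by rw [hθdef]; field_simp; ring
      _ ≤ 1 := by norm_num
  set S₁ : ℝ≥0∞ := ∑ j ∈ sqf ⌊B / H⌋₊, ENNReal.ofReal (1 / √(j : ℝ)) * (Jm j + 1) with hS1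
  set Br : ℝ≥0∞ := ENNReal.ofReal H + ENNReal.ofReal (√H) * S₁ with hBr
  set a : ℝ := 1 / (3 * (k₀ * X)) with ha
  have ha0 : 0 ≤ a := by positivity
  have key : ∀ r : ℕ, 0 < r →
      ((prs P).card : ℝ≥0∞) * ∫⁻ u in Ioi a,
        ENNReal.ofReal ((∑ m ∈ sqZ X, Uf m r u ^ 2) * u ^ (1 + 2 * θ)) ≤
        ENNReal.ofReal (Z * (1 / θ) ^ N * dv r ^ Aa) * Br := by
    intro r hr
    exact key_gain hC hCs0 hCa hC0 hCv hE1pos hS hA h0 hT hV L θ H X P hX hL hlog hθ hθ8 hHdef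
      hXH hkXH hBpos hBE r hr
  -- assembly
  have hfin := hD θ hθ hθ8 X hX
  have hr0 : ∀ r : {r : ℕ // Powerful r}, 0 < (r : ℕ) := fun r => Nat.pos_of_ne_zero r.2.1
  have hterm : ∀ r : {r : ℕ // Powerful r}, ((prs P).card : ℝ≥0∞) *
      (ENNReal.ofReal (dv r ^ 2 * (r : ℝ) ^ (-1 / 2 - 3 / 2 * θ)) *
        ∫⁻ u in Ioi a, ENNReal.ofReal ((∑ m ∈ sqZ X, Uf m r u ^ 2) * u ^ (1 + 2 * θ))) ≤
      ENNReal.ofReal (Z * (1 / θ) ^ N) * Br *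
        ENNReal.ofReal (dv r ^ (2 + Aa) * (r : ℝ) ^ (-1 / 2 - 3 / 2 * θ)) := by
    intro r
    have h1 : 0 ≤ dv r := I2Mod.dv_nonneg r
    calc ((prs P).card : ℝ≥0∞) * (ENNReal.ofReal (dv r ^ 2 * (r : ℝ) ^ (-1 / 2 - 3 / 2 * θ)) *
        ∫⁻ u in Ioi a, ENNReal.ofReal ((∑ m ∈ sqZ X, Uf m r u ^ 2) * u ^ (1 + 2 * θ)))
        = ENNReal.ofReal (dv r ^ 2 * (r : ℝ) ^ (-1 / 2 - 3 / 2 * θ)) * (((prs P).card : ℝ≥0∞) *
        ∫⁻ u in Ioi a, ENNReal.ofReal ((∑ m ∈ sqZ X, Uf m r u ^ 2) * u ^ (1 + 2 * θ))) := by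
          ring
      _ ≤ ENNReal.ofReal (dv r ^ 2 * (r : ℝ) ^ (-1 / 2 - 3 / 2 * θ)) *
          (ENNReal.ofReal (Z * (1 / θ) ^ N * dv r ^ Aa) * Br) :=
          mul_le_mul' le_rfl (key r (hr0 r))
      _ = ENNReal.ofReal (dv r ^ 2 * (r : ℝ) ^ (-1 / 2 - 3 / 2 * θ) *
            (Z * (1 / θ) ^ N * dv r ^ Aa)) * Br := by
          rw [ENNReal.ofReal_mul (p := dv r ^ 2 * (r : ℝ) ^ (-1 / 2 - 3 / 2 * θ)) (by positivity),
            ← mul_assoc]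
      _ = ENNReal.ofReal ((Z * (1 / θ) ^ N) *
            (dv r ^ (2 + Aa) * (r : ℝ) ^ (-1 / 2 - 3 / 2 * θ))) * Br := by
          congr 2
          rw [pow_add]; ring
      _ = ENNReal.ofReal (Z * (1 / θ) ^ N) * Br *
            ENNReal.ofReal (dv r ^ (2 + Aa) * (r : ℝ) ^ (-1 / 2 - 3 / 2 * θ)) := by
          rw [ENNReal.ofReal_mul (p := Z * (1 / θ) ^ N) (by positivity)]
          ring
  have hsumr : ∑' r : {r : ℕ // Powerful r},
      ENNReal.ofReal (dv r ^ (2 + Aa) * (r : ℝ) ^ (-1 / 2 - 3 / 2 * θ)) ≤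
      ENNReal.ofReal (Cw * (1 / θ) ^ Aw) := by
    refine (hW (3 / 2 * θ) (by positivity) (by linarith)).trans ?_
    apply ENNReal.ofReal_le_ofReal
    have : 1 / (3 / 2 * θ) ≤ 1 / θ := one_div_le_one_div_of_le hθ (by linarith)
    gcongr
  have hpre : ENNReal.ofReal (Cd * (1 / θ) ^ Ad * (3 * (k₀ * X) : ℝ) ^ (2 * θ)) ≤
      ENNReal.ofReal (Cd * (1 / θ) ^ Ad * Real.exp 1) := by
    apply ENNReal.ofReal_le_ofReal
    gcongr
  calc ((prs P).card : ℝ≥0∞) * sumJ X ≤ ((prs P).card : ℝ≥0∞) *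
        (ENNReal.ofReal (Cd * (1 / θ) ^ Ad * (3 * (k₀ * X) : ℝ) ^ (2 * θ)) *
          ∑' r : {r : ℕ // Powerful r}, ENNReal.ofReal (dv r ^ 2 * (r : ℝ) ^ (-1 / 2 - 3 / 2 * θ)) *
          ∫⁻ u in Ioi (1 / (3 * (k₀ * X)) : ℝ),
            ENNReal.ofReal ((∑ m ∈ sqZ X, Uf m r u ^ 2) * u ^ (1 + 2 * θ))) := by
        gcongr
    _ = ENNReal.ofReal (Cd * (1 / θ) ^ Ad * (3 * (k₀ * X) : ℝ) ^ (2 * θ)) *
        ∑' r : {r : ℕ // Powerful r}, ((prs P).card : ℝ≥0∞) *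
          (ENNReal.ofReal (dv r ^ 2 * (r : ℝ) ^ (-1 / 2 - 3 / 2 * θ)) *
          ∫⁻ u in Ioi (1 / (3 * (k₀ * X)) : ℝ),
            ENNReal.ofReal ((∑ m ∈ sqZ X, Uf m r u ^ 2) * u ^ (1 + 2 * θ))) := by
        rw [ENNReal.tsum_mul_left]
        ring
    _ ≤ ENNReal.ofReal (Cd * (1 / θ) ^ Ad * Real.exp 1) *
        ∑' r : {r : ℕ // Powerful r}, ENNReal.ofReal (Z * (1 / θ) ^ N) * Br *
          ENNReal.ofReal (dv r ^ (2 + Aa) * (r : ℝ) ^ (-1 / 2 - 3 / 2 * θ)) :=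
        mul_le_mul' hpre (ENNReal.tsum_le_tsum hterm)
    _ = ENNReal.ofReal (Cd * (1 / θ) ^ Ad * Real.exp 1) * (ENNReal.ofReal (Z * (1 / θ) ^ N) * Br *
        ∑' r : {r : ℕ // Powerful r},
          ENNReal.ofReal (dv r ^ (2 + Aa) * (r : ℝ) ^ (-1 / 2 - 3 / 2 * θ))) := by
        rw [ENNReal.tsum_mul_left]
    _ ≤ ENNReal.ofReal (Cd * (1 / θ) ^ Ad * Real.exp 1) * (ENNReal.ofReal (Z * (1 / θ) ^ N) * Br *
        ENNReal.ofReal (Cw * (1 / θ) ^ Aw)) :=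
        mul_le_mul' le_rfl (mul_le_mul' le_rfl hsumr)
    _ = ENNReal.ofReal (Cd * (1 / θ) ^ Ad * Real.exp 1 * (Z * (1 / θ) ^ N) *
          (Cw * (1 / θ) ^ Aw)) * Br := by
        rw [ENNReal.ofReal_mul (p := Cd * (1 / θ) ^ Ad * Real.exp 1 * (Z * (1 / θ) ^ N))
          (by positivity), ENNReal.ofReal_mul (p := Cd * (1 / θ) ^ Ad * Real.exp 1)
          (by positivity)]
        ring
    _ ≤ ENNReal.ofReal (max 1 (Cd * Real.exp 1 * Z * Cw * 8 ^ (Ad + N + Aw)) *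
          L ^ (Ad + N + Aw)) * Br := by
        refine mul_le_mul' (ENNReal.ofReal_le_ofReal ?_) le_rfl
        rw [hθ1]
        have e : Cd * (8 * L) ^ Ad * Real.exp 1 * (Z * (8 * L) ^ N) * (Cw * (8 * L) ^ Aw) =
            (Cd * Real.exp 1 * Z * Cw * 8 ^ (Ad + N + Aw)) * L ^ (Ad + N + Aw) := by
          rw [mul_pow, mul_pow, mul_pow, pow_add, pow_add, pow_add, pow_add]; ring
        rw [e]
        gcongr
        exact le_max_right _ _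

end P004G.H3
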