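import Vale.Agent.P004G.H3.Edge2
import Vale.Agent.P004.H3.Edge3

/-!
# P004G/H3: the square trick, part 3: the full second moment is `≪ X (log X)^A`
-/

open Real MeasureTheory Set
open scoped ENNReal

namespace P004G.H3

export P004.H3 (card_prs card_prs_ge)

variable [Crv]

theorem sum_sqf (K : ℕ) (P : ℝ) (hP : 0 ≤ P)
    (h : ∀ y ≤ K, sumJ y ≤ ENNReal.ofReal (P * y)) :
    ∑ j ∈ sqf K, ENNReal.ofReal (1 / √(j : ℝ)) * (Jm j + 1) ≤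
      ENNReal.ofReal (2 * (P + 1) * √(K : ℝ)) := by
  classical
  have e : ∑ j ∈ sqf K, ENNReal.ofReal (1 / √(j : ℝ)) * (Jm j + 1) =
      ∑ j ∈ Finset.Icc 1 K, ENNReal.ofReal (1 / √(j : ℝ)) *
        (if Squarefree j then Jm j + 1 else 0) := by
    unfold sqf
    rw [Finset.sum_filter]
    refine Finset.sum_congr rfl fun j _ => ?_
    split_ifs <;> simp
  rw [e]
  apply P004.JMod.abel _ _ _ (by linarith)
  intro y hy
  have e2 : ∑ j ∈ Finset.Icc 1 y, (if Squarefree j then Jm j + 1 else 0) =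
      sumJ y + ((sqf y).card : ℝ≥0∞) := by
    unfold sumJ sqf
    rw [← Finset.sum_filter, Finset.sum_add_distrib]
    simp
  rw [e2]
  have h3 : ((sqf y).card : ℝ≥0∞) ≤ ENNReal.ofReal y := by
    rw [ENNReal.ofReal_natCast]
    have : (sqf y).card ≤ y := by
      calc (sqf y).card ≤ (Finset.Icc 1 y).card := Finset.card_filter_le _ _
        _ = y := by simp
    exact_mod_cast this
  calc sumJ y + ((sqf y).card : ℝ≥0∞) ≤ ENNReal.ofReal (P * y) + ENNReal.ofReal y :=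
        add_le_add (h y hy) h3
    _ = ENNReal.ofReal ((P + 1) * y) := by
        rw [← ENNReal.ofReal_add (by positivity) (by positivity)]
        congr 1; ring

/-- the induction -/
theorem edge_ind {C₁ C : ℝ} {A k₀ : ℕ} (hk₀ : 1 ≤ k₀) (hC₁ : 1 ≤ C₁) (hC : 1 ≤ C)
    (hrec : ∀ (L : ℝ) (X P : ℕ), 1 ≤ X → 1 ≤ L →
      Real.log (k₀ * X) ≤ L → k₀ ≤ P →
      ((prs P).card : ℝ≥0∞) * sumJ X ≤ ENNReal.ofReal (C * L ^ A) *
        (ENNReal.ofReal ((P : ℝ) ^ 2 * X) + ENNReal.ofReal (√((P : ℝ) ^ 2 * X)) *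
        ∑ j ∈ sqf ⌊(X : ℝ) ^ 2 * (C₁ * L) ^ 17 / ((P : ℝ) ^ 2 * X)⌋₊,
          ENNReal.ofReal (1 / √(j : ℝ)) * (Jm j + 1)))
    (L : ℝ) (hL : 1 ≤ L) (X₀ : ℕ) (hX₀ : Real.log (k₀ * X₀) ≤ L) (P : ℕ) (hP4 : 4 ≤ P)
    (hkP : k₀ ≤ P)
    (hPQ : 8 * (8 * (C * L ^ A * (C₁ * L) ^ 9)) ≤ √(P : ℝ)) :
    ∀ Y : ℕ, Y ≤ X₀ → sumJ Y ≤ ENNReal.ofReal ((P : ℝ) ^ 2 * Y) := by
  have hCL : 1 ≤ C₁ * L := by nlinarith
  have hCL9 : 1 ≤ (C₁ * L) ^ 9 := one_le_pow₀ hCL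
  have hLA : 1 ≤ L ^ A := one_le_pow₀ hL
  obtain ⟨Q, hQ⟩ : ∃ Q : ℝ, Q = C * L ^ A * (C₁ * L) ^ 9 := ⟨_, rfl⟩
  rw [← hQ] at hPQ
  have hCLA : 1 ≤ C * L ^ A := by nlinarith
  have hQ9 : (C₁ * L) ^ 9 ≤ Q := by rw [hQ]; nlinarith
  have hQA : C * L ^ A ≤ Q := by rw [hQ]; nlinarith
  have hQ1 : 1 ≤ Q := hCL9.trans hQ9
  have hPR : (4 : ℝ) ≤ P := by exact_mod_cast hP4
  have hP0 : (0 : ℝ) < P := by linarith
  have hss : √(P : ℝ) * √(P : ℝ) = P := Real.mul_self_sqrt hP0.le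
  have hcard : 8 * Q ≤ ((prs P).card : ℝ) := by
    have := card_prs_ge hP4
    linarith
  have hPbig : 4 * (C₁ * L) ^ 17 ≤ (P : ℝ) ^ 2 := by
    have h1 : Q ≤ (P : ℝ) := by nlinarith
    have h2 : (C₁ * L) ^ 17 ≤ (C₁ * L) ^ 18 := pow_le_pow_right₀ hCL (by norm_num)
    have h3 : (C₁ * L) ^ 18 ≤ Q ^ 2 := by
      calc (C₁ * L) ^ 18 = ((C₁ * L) ^ 9) ^ 2 := by ring
        _ ≤ Q ^ 2 := by gcongr
    have h4 : 64 * Q ≤ √(P : ℝ) := by linarith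
    have h5 : (2 * Q) ≤ P := by nlinarith
    calc 4 * (C₁ * L) ^ 17 ≤ 4 * Q ^ 2 := by linarith
      _ = (2 * Q) ^ 2 := by ring
      _ ≤ (P : ℝ) ^ 2 := by gcongr
  intro Y
  induction Y using Nat.strong_induction_on with
  | _ Y ih =>
    intro hY
    rcases Nat.eq_zero_or_pos Y with rfl | hYpos
    · simp [sumJ, sqf]
    have hYR : (1 : ℝ) ≤ Y := by exact_mod_cast hYpos
    have hk₀R : (1 : ℝ) ≤ k₀ := by exact_mod_cast hk₀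
    have hlogY : Real.log (k₀ * Y) ≤ L := by
      refine (Real.log_le_log (by positivity) ?_).trans hX₀
      have : (Y : ℝ) ≤ X₀ := by exact_mod_cast hY
      gcongr
    have h := hrec L Y P hYpos hL hlogY hkP
    have hquot : (Y : ℝ) ^ 2 * (C₁ * L) ^ 17 / ((P : ℝ) ^ 2 * Y) =
        Y * (C₁ * L) ^ 17 / (P : ℝ) ^ 2 := by
      field_simp
    rw [hquot] at h
    obtain ⟨K, hK⟩ : ∃ K : ℕ, K = ⌊(Y : ℝ) * (C₁ * L) ^ 17 / (P : ℝ) ^ 2⌋₊ := ⟨_, rfl⟩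
    rw [← hK] at h
    have hKle : (K : ℝ) ≤ (Y : ℝ) * (C₁ * L) ^ 17 / (P : ℝ) ^ 2 := by
      rw [hK]; exact Nat.floor_le (by positivity)
    have hKY : (K : ℝ) ≤ Y / 4 := by
      refine hKle.trans ?_
      rw [div_le_div_iff₀ (by positivity) (by norm_num)]
      nlinarith
    have hKY' : K < Y := by
      have : (K : ℝ) < Y := by linarith
      exact_mod_cast this
    have hsum := sum_sqf K ((P : ℝ) ^ 2) (by positivity) (fun y hy =>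
      ih y (lt_of_le_of_lt hy hKY') (by omega))
    have hs2 : √((P : ℝ) ^ 2 * Y) * √(K : ℝ) ≤ Y * (C₁ * L) ^ 9 := by
      rw [← Real.sqrt_mul (by positivity)]
      apply Real.sqrt_le_iff.2
      refine ⟨by positivity, ?_⟩
      calc (P : ℝ) ^ 2 * Y * K ≤ (P : ℝ) ^ 2 * Y * ((Y : ℝ) * (C₁ * L) ^ 17 / (P : ℝ) ^ 2) := by
            gcongr
        _ = (Y : ℝ) ^ 2 * (C₁ * L) ^ 17 := by field_simp
        _ ≤ (Y : ℝ) ^ 2 * (C₁ * L) ^ 18 := by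
            have : (C₁ * L) ^ 17 ≤ (C₁ * L) ^ 18 := pow_le_pow_right₀ hCL (by norm_num)
            gcongr
        _ = (Y * (C₁ * L) ^ 9) ^ 2 := by ring
    have hcard0 : ((prs P).card : ℝ≥0∞) ≠ 0 := by
      have : (0 : ℝ) < ((prs P).card : ℝ) := by linarith
      have : 0 < (prs P).card := by exact_mod_cast this
      exact_mod_cast this.ne'
    have hfin : ((prs P).card : ℝ≥0∞) * sumJ Y ≤
        ((prs P).card : ℝ≥0∞) * ENNReal.ofReal ((P : ℝ) ^ 2 * Y) := by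
      calc ((prs P).card : ℝ≥0∞) * sumJ Y ≤ _ := h
        _ ≤ ENNReal.ofReal (C * L ^ A) * (ENNReal.ofReal ((P : ℝ) ^ 2 * Y) +
            ENNReal.ofReal (√((P : ℝ) ^ 2 * Y)) *
              ENNReal.ofReal (2 * ((P : ℝ) ^ 2 + 1) * √(K : ℝ))) := by gcongr
        _ = ENNReal.ofReal (C * L ^ A * ((P : ℝ) ^ 2 * Y + √((P : ℝ) ^ 2 * Y) *
              (2 * ((P : ℝ) ^ 2 + 1) * √(K : ℝ)))) := by
            rw [← ENNReal.ofReal_mul (by positivity), ← ENNReal.ofReal_add (by positivity)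
              (by positivity), ← ENNReal.ofReal_mul (by positivity)]
        _ ≤ ENNReal.ofReal (((prs P).card : ℝ) * ((P : ℝ) ^ 2 * Y)) := by
            apply ENNReal.ofReal_le_ofReal
            have e1 : √((P : ℝ) ^ 2 * Y) * (2 * ((P : ℝ) ^ 2 + 1) * √(K : ℝ)) ≤
                2 * ((P : ℝ) ^ 2 + 1) * (Y * (C₁ * L) ^ 9) := by
              calc √((P : ℝ) ^ 2 * Y) * (2 * ((P : ℝ) ^ 2 + 1) * √(K : ℝ)) =
                  2 * ((P : ℝ) ^ 2 + 1) * (√((P : ℝ) ^ 2 * Y) * √(K : ℝ)) := by ring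
                _ ≤ _ := by gcongr
            have hP2 : (1 : ℝ) ≤ (P : ℝ) ^ 2 := one_le_pow₀ (by linarith)
            calc C * L ^ A * ((P : ℝ) ^ 2 * Y + √((P : ℝ) ^ 2 * Y) *
                  (2 * ((P : ℝ) ^ 2 + 1) * √(K : ℝ)))
                ≤ C * L ^ A * ((P : ℝ) ^ 2 * Y + 2 * ((P : ℝ) ^ 2 + 1) * (Y * (C₁ * L) ^ 9)) := by
                  gcongr
              _ = (C * L ^ A) * ((P : ℝ) ^ 2 * Y) + 2 * ((P : ℝ) ^ 2 + 1) * Y * Q := by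
                  rw [hQ]; ring
              _ ≤ Q * ((P : ℝ) ^ 2 * Y) + 2 * ((P : ℝ) ^ 2 + (P : ℝ) ^ 2) * Y * Q := by
                  gcongr
              _ = 5 * Q * ((P : ℝ) ^ 2 * Y) := by ring
              _ ≤ ((prs P).card : ℝ) * ((P : ℝ) ^ 2 * Y) := by
                  gcongr
                  linarith
        _ = ((prs P).card : ℝ≥0∞) * ENNReal.ofReal ((P : ℝ) ^ 2 * Y) := by
            rw [ENNReal.ofReal_mul (by positivity), ENNReal.ofReal_natCast]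
    exact (ENNReal.mul_le_mul_iff_right hcard0 (ENNReal.natCast_ne_top _)).1 hfin

/-- **The full second moment**: `∑_{m ≤ X squarefree} J_m ≪ X (log X)^A`. -/
theorem pfFull_of (hC : StCoef) (hPair : StPair) (hK : StKer) (hDecomp : StDecomp) (hAj : StAj)
    (hA0 : StA0) (hTail : StTail) (hDiv : StDiv) : StFull := by
  obtain ⟨k₀, hk₀, C₁, hC₁, C, hC1, A, hrec⟩ := rec_gain hC hPair hK hDecomp hAj hA0 hTail hDiv
  have hk₀R : (1 : ℝ) ≤ k₀ := by exact_mod_cast hk₀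
  -- `c = 1 + log k₀`, `L = c log X`
  obtain ⟨c, hcdef⟩ : ∃ c : ℝ, c = 1 + Real.log k₀ := ⟨_, rfl⟩
  have hc1 : 1 ≤ c := by
    rw [hcdef]
    have := Real.log_nonneg hk₀R
    linarith
  obtain ⟨D, hDdef⟩ : ∃ D : ℝ, D = 64 * (C * C₁ ^ 9 * k₀ * c ^ (A + 9)) := ⟨_, rfl⟩
  have hC19 : 1 ≤ C₁ ^ 9 := one_le_pow₀ hC₁
  have hcA : 1 ≤ c ^ (A + 9) := one_le_pow₀ hc1
  have hD1 : 1 ≤ D := by
    rw [hDdef]
    have h2 : 1 ≤ C * C₁ ^ 9 := by nlinarith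
    have h3 : 1 ≤ C * C₁ ^ 9 * k₀ := by nlinarith
    have h4 : 1 ≤ C * C₁ ^ 9 * k₀ * c ^ (A + 9) := by nlinarith
    linarith
  refine ⟨(2 * D ^ 2) ^ 2, ?_, 4 * (A + 9), fun X hX => ?_⟩
  · have h4 : 1 ≤ D ^ 2 := one_le_pow₀ hD1
    exact one_le_pow₀ (by linarith)
  have hX3 : (3 : ℝ) ≤ X := by exact_mod_cast hX
  obtain ⟨ℓ, hℓ⟩ : ∃ ℓ : ℝ, ℓ = Real.log X := ⟨_, rfl⟩
  have hℓ1 : 1 ≤ ℓ := by
    rw [hℓ, Real.le_log_iff_exp_le (by linarith)]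
    have := Real.exp_one_lt_d9
    linarith
  obtain ⟨L, hL⟩ : ∃ L : ℝ, L = c * ℓ := ⟨_, rfl⟩
  have hL1 : 1 ≤ L := by rw [hL]; nlinarith
  have hXL : Real.log (k₀ * X) ≤ L := by
    rw [Real.log_mul (by positivity) (by positivity), ← hℓ, hL, hcdef]
    have := Real.log_nonneg hk₀R
    nlinarith
  rw [← hℓ]
  have hCL : 1 ≤ C₁ * L := by nlinarith
  have hCL9 : 1 ≤ (C₁ * L) ^ 9 := one_le_pow₀ hCL
  have hLA : 1 ≤ L ^ A := one_le_pow₀ hL1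
  have hCLA : 1 ≤ C * L ^ A := by nlinarith
  obtain ⟨Q, hQ⟩ : ∃ Q : ℝ, Q = C * L ^ A * (C₁ * L) ^ 9 := ⟨_, rfl⟩
  have hQ1 : 1 ≤ Q := by rw [hQ]; nlinarith
  have hkQ : Q ≤ k₀ * Q := by nlinarith
  have hkQk : (k₀ : ℝ) ≤ k₀ * Q := by nlinarith
  have hkQ1 : 1 ≤ k₀ * Q := hQ1.trans hkQ
  obtain ⟨P, hPdef⟩ : ∃ P : ℕ, P = ⌈(64 * (k₀ * Q)) ^ 2⌉₊ := ⟨_, rfl⟩
  have hPge : (64 * (k₀ * Q)) ^ 2 ≤ (P : ℝ) := by rw [hPdef]; exact Nat.le_ceil _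
  have h64 : (1 : ℝ) ≤ (64 * (k₀ * Q)) ^ 2 := one_le_pow₀ (by linarith)
  have hPle : (P : ℝ) ≤ 2 * (64 * (k₀ * Q)) ^ 2 := by
    rw [hPdef]
    have := Nat.ceil_lt_add_one (show (0 : ℝ) ≤ (64 * (k₀ * Q)) ^ 2 by positivity)
    linarith
  have hP4 : 4 ≤ P := by
    have : (4 : ℝ) ≤ P := by nlinarith
    exact_mod_cast this
  have hkP : k₀ ≤ P := by
    have : (k₀ : ℝ) ≤ P := by nlinarith
    exact_mod_cast this
  have hPQ : 8 * (8 * (C * L ^ A * (C₁ * L) ^ 9)) ≤ √(P : ℝ) := by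
    rw [← hQ]
    apply Real.le_sqrt_of_sq_le
    refine le_trans ?_ hPge
    have : 8 * (8 * Q) ≤ 64 * (k₀ * Q) := by linarith
    gcongr
  have h := edge_ind hk₀ hC₁ hC1 hrec L hL1 X hXL P hP4 hkP hPQ X le_rfl
  refine h.trans (ENNReal.ofReal_le_ofReal ?_)
  have hQe : 64 * (k₀ * Q) = D * ℓ ^ (A + 9) := by
    rw [hQ, hDdef, hL, mul_pow, mul_pow, mul_pow, pow_add, pow_add]; ring
  calc (P : ℝ) ^ 2 * X ≤ (2 * (64 * (k₀ * Q)) ^ 2) ^ 2 * X := by gcongr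
    _ = (2 * D ^ 2) ^ 2 * X * ℓ ^ (4 * (A + 9)) := by
      rw [hQe, show 4 * (A + 9) = (A + 9) * 4 by ring, pow_mul]
      ring

end P004G.H3
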