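import Vale.Agent.P004G.D
import Vale.Agent.P004G.F
import Vale.Agent.P004G.G
import Vale.Agent.P004G.H2
import Vale.Agent.P004G.H3
import Vale.Agent.P004G.H4
import Vale.Agent.P004G.H5
import Vale.Agent.P004G.I1
import Vale.Agent.P004G.H3.Edge3
import Vale.Agent.P004.B
import Vale.Agent.P004.C0
import Vale.Agent.P004.E

/-!
# P004G: the full second moment from the folded identity
-/

namespace P004G

/-- Module A': the full second moment, for every coefficient system with `StFold`. -/
theorem pfFull [Crv] (hFold : StFold) : StFull :=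
  H3.pfFull_of pfCoef (pfPair (pfPois P004.pfTw)) P004.pfKer (pfDecomp pfCoef hFold P004.pfDiv)
    (pfAj (pfStSep pfCoef P004.pfKer) (pfConv pfCoef P004.pfDiv) (pfStFrac pfCoef) P004.pfDiv)
    (pfA0 pfCoef P004.pfDiv) (pfTail P004.pfKer) P004.pfDiv

end P004G
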