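import Vale.Agent.P004G.ML
import Mathlib.NumberTheory.LegendreSymbol.QuadraticChar.Basic
import Mathlib.NumberTheory.LegendreSymbol.JacobiSymbol

/-!
# P004G/H3: the local factors of `y² = x³ + a x + b` and of its twists
-/

open WeierstrassCurve Polynomial

namespace P004G
namespace ML
namespace MG

/-- `y² = x³ + a x + b` over any ring -/
def Ew (S : Type*) [CommRing S] (a b : ℤ) : WeierstrassCurve S := ⟨0, 0, 0, a, b⟩

lemma map_Ew {S T : Type*} [CommRing S] [CommRing T] (f : S →+* T) (a b : ℤ) :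
    (Ew S a b).map f = Ew T a b := by
  ext <;> simp [Ew, WeierstrassCurve.map]

lemma Ec_map {K : Type*} [Field K] [Algebra ℚ K] (a b : ℤ) :
    (Ec a b).baseChange K = Ew K a b := by
  have : Ec a b = Ew ℚ a b := rfl
  rw [this]
  exact map_Ew _ a b

lemma Ew_Δ (S : Type*) [CommRing S] (a b : ℤ) :
    (Ew S a b).Δ = ((-16 * (4 * a ^ 3 + 27 * b ^ 2) : ℤ) : S) := by
  simp only [Ew, WeierstrassCurve.Δ, WeierstrassCurve.b₂, WeierstrassCurve.b₄,
    WeierstrassCurve.b₆, WeierstrassCurve.b₈]
  push_cast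
  ring

lemma Ew_c₄ (S : Type*) [CommRing S] (a b : ℤ) : (Ew S a b).c₄ = ((-48 * a : ℤ) : S) := by
  simp only [Ew, WeierstrassCurve.c₄, WeierstrassCurve.b₂, WeierstrassCurve.b₄]
  push_cast
  ring

section local_ring

variable {p : ℕ} {R : Type} [CommRing R] [IsDomain R] [IsDiscreteValuationRing R]

lemma not_isUnit_p (h : Loc p R) : ¬ IsUnit (p : R) := h.unif.not_isUnit

lemma isUnit_int (h : Loc p R) {n : ℤ} (hn : ¬ (p : ℤ) ∣ n) : IsUnit (n : R) := by
  by_contra hu
  have h1 : (n : R) ∈ IsLocalRing.maximalIdeal R := (IsLocalRing.mem_maximalIdeal _).2 hu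
  have h2 : (p : R) ∈ IsLocalRing.maximalIdeal R :=
    (IsLocalRing.mem_maximalIdeal _).2 (not_isUnit_p h)
  have hc : IsCoprime (p : ℤ) n := by
    rw [Prime.coprime_iff_not_dvd (Nat.prime_iff_prime_int.1 h.prime)]
    exact hn
  obtain ⟨u, v, huv⟩ := hc
  have h3 : (1 : R) ∈ IsLocalRing.maximalIdeal R := by
    have h4 : (1 : R) = (u : R) * (p : R) + (v : R) * (n : R) := by
      have := congrArg (fun z : ℤ => (z : R)) huv
      push_cast at this
      exact this.symm
    rw [h4]
    exact Ideal.add_mem _ (Ideal.mul_mem_left _ _ h2) (Ideal.mul_mem_left _ _ h1)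
  exact (IsLocalRing.mem_maximalIdeal _).1 h3 isUnit_one

end local_ring

section finite_field

variable {p : ℕ} {k : Type} [Field k]

open Classical in
lemma sum_char (hp : p.Prime) (hp2 : p ≠ 2) (hk : Nat.card k = p) (a b : k) :
    ∃ _ : Fintype k, (p : ℤ) - affCard (⟨0, 0, 0, a, b⟩ : WeierstrassCurve k) =
      -∑ x : k, quadraticChar k (x ^ 3 + a * x + b) := by
  have hfin : Finite k := Nat.finite_of_card_ne_zero (by rw [hk]; exact hp.ne_zero)
  have hF : Fintype k := Fintype.ofFinite k
  refine ⟨hF, ?_⟩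
  have hcard : Fintype.card k = p := by rw [← Nat.card_eq_fintype_card, hk]
  have hchar : ringChar k ≠ 2 := by
    intro h
    have h1 := FiniteField.even_card_of_char_two h
    rw [hcard] at h1
    rcases hp.eq_two_or_odd with h2 | h2
    · exact hp2 h2
    · omega
  unfold affCard
  have e1 : Nat.card {q : k × k // q.2 ^ 2 + (0 : k) * q.1 * q.2 + 0 * q.2 =
      q.1 ^ 3 + 0 * q.1 ^ 2 + a * q.1 + b} =
      ∑ x : k, ({y : k | y ^ 2 = x ^ 3 + a * x + b}.toFinset).card := by
    rw [Nat.card_eq_fintype_card, Fintype.card_subtype, ← Finset.card_sigma]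
    refine Finset.card_bij (fun q _ => ⟨q.1, q.2⟩) ?_ ?_ ?_
    · intro q hq
      simp only [Finset.mem_filter, Finset.mem_univ, true_and] at hq
      simp only [Finset.mem_sigma, Finset.mem_univ, Set.mem_toFinset, Set.mem_ofPred_eq, true_and]
      linear_combination hq
    · rintro ⟨x, y⟩ _ ⟨x', y'⟩ _ h
      simp only [Sigma.mk.injEq, heq_eq_eq] at h
      rw [h.1, h.2]
    · rintro ⟨x, y⟩ hq
      simp only [Finset.mem_sigma, Finset.mem_univ, Set.mem_toFinset, Set.mem_ofPred_eq,
        true_and] at hq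
      refine ⟨(x, y), ?_, rfl⟩
      simp only [Finset.mem_filter, Finset.mem_univ, true_and]
      linear_combination hq
  have e2 : ((∑ x : k, ({y : k | y ^ 2 = x ^ 3 + a * x + b}.toFinset).card : ℕ) : ℤ) =
      ∑ x : k, (quadraticChar k (x ^ 3 + a * x + b) + 1) := by
    push_cast
    refine Finset.sum_congr rfl fun x _ => ?_
    exact quadraticChar_card_sqrts hchar _
  rw [e1, e2, Finset.sum_add_distrib]
  simp [hcard]

open Classical in
/-- the trace of the quadratic twist -/
lemma tr_twist (hp : p.Prime) (hp2 : p ≠ 2) (hk : Nat.card k = p) (a b D : ℤ)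
    (hD : (D : k) ≠ 0) :
    (p : ℤ) - affCard (Ew k (a * D ^ 2) (b * D ^ 3)) =
      jacobiSym D p * ((p : ℤ) - affCard (Ew k a b)) := by
  have hfin : Finite k := Nat.finite_of_card_ne_zero (by rw [hk]; exact hp.ne_zero)
  obtain ⟨hF, h1⟩ := sum_char hp hp2 hk ((a * D ^ 2 : ℤ) : k) ((b * D ^ 3 : ℤ) : k)
  obtain ⟨hF', h2⟩ := sum_char hp hp2 hk (a : k) (b : k)
  have : hF' = hF := Subsingleton.elim _ _
  subst this
  unfold Ew
  rw [h1, h2]
  have e1 : ∑ x : k, quadraticChar k (x ^ 3 + ((a * D ^ 2 : ℤ) : k) * x + ((b * D ^ 3 : ℤ) : k)) =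
      ∑ x : k, quadraticChar k ((D : k)) * quadraticChar k (x ^ 3 + (a : k) * x + (b : k)) := by
    symm
    refine Fintype.sum_bijective (fun x => (D : k) * x) (mulLeft_bijective₀ _ hD) _ _ ?_
    intro x
    have e3 : ((D : k) * x) ^ 3 + ((a * D ^ 2 : ℤ) : k) * ((D : k) * x) + ((b * D ^ 3 : ℤ) : k) =
        (D : k) ^ 2 * ((D : k) * (x ^ 3 + (a : k) * x + (b : k))) := by
      push_cast
      ring
    rw [e3, map_mul, map_mul, map_pow, quadraticChar_sq_one hD, one_mul]
  have e2 : quadraticChar k (D : k) = jacobiSym D p := by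
    have : Fact p.Prime := ⟨hp⟩
    have hcard : Fintype.card k = p := by rw [← Nat.card_eq_fintype_card, hk]
    rw [← jacobiSym.legendreSym.to_jacobiSym, legendreSym]
    have e : ZMod p ≃+* k := ZMod.ringEquivOfPrime k hp hcard
    have he : e (D : ZMod p) = (D : k) := map_intCast e D
    have hD' : (D : ZMod p) ≠ 0 := by
      intro h
      rw [h, map_zero] at he
      exact hD he.symm
    have hsq : IsSquare (D : k) ↔ IsSquare (D : ZMod p) := by
      constructor
      · intro h
        have h3 := h.map (e.symm : k →+* ZMod p)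
        rwa [map_intCast] at h3
      · intro h
        have h3 := h.map (e : ZMod p →+* k)
        rwa [map_intCast] at h3
    rw [quadraticChar_apply, quadraticCharFun, quadraticChar_apply, quadraticCharFun,
      if_neg hD, if_neg hD']
    simp only [hsq]
  rw [e1, ← Finset.mul_sum, e2]
  ring

end finite_field

end MG
end ML
end P004G
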