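import Vale.Agent.P004G.H3.MG1

/-!
# P004G/H3: module MLG
-/

open WeierstrassCurve Polynomial

namespace P004G
namespace ML
namespace MG

section main

variable {p : ℕ} {R : Type} [CommRing R] [IsDomain R] [IsDiscreteValuationRing R]
  {K : Type} [Field K] [Algebra R K] [IsFractionRing R K]

lemma not_dvd_disc (h : Loc p R) (hp2 : p ≠ 2) {D e : ℤ} (hD : ¬ (p : ℤ) ∣ D)
    (he : ¬ (p : ℤ) ∣ e) : ¬ (p : ℤ) ∣ -16 * (D * e) := by
  have hpp : Prime (p : ℤ) := Nat.prime_iff_prime_int.1 h.prime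
  intro h1
  rcases hpp.dvd_or_dvd h1 with h2 | h2
  · have h3 : (p : ℤ) ∣ 2 := by
      apply hpp.dvd_of_dvd_pow (n := 4)
      have : (-16 : ℤ) = -(2 ^ 4) := by norm_num
      rw [this, dvd_neg] at h2
      exact h2
    have h4 : p ∣ 2 := by exact_mod_cast h3
    exact hp2 ((Nat.prime_dvd_prime_iff_eq h.prime Nat.prime_two).1 h4)
  · rcases hpp.dvd_or_dvd h2 with h3 | h3
    · exact hD h3
    · exact he h3

lemma good (hG : StLocGood) (h : Loc p R) (hp2 : p ≠ 2) (a b : ℤ)
    (hd : ¬ (p : ℤ) ∣ 4 * a ^ 3 + 27 * b ^ 2) :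
    (Ew K a b).localPolynomial R =
      1 - C ((p : ℤ) - affCard (Ew (IsLocalRing.ResidueField R) a b)) * X + C (p : ℤ) * X ^ 2 := by
  have h1 := hG p R K h (Ew K a b) 1 (Ew R a b) (by rw [one_smul, map_Ew]) (by
    rw [Ew_Δ]
    apply isUnit_int h
    have h2 := not_dvd_disc h hp2 (D := 1) (e := 4 * a ^ 3 + 27 * b ^ 2) (by
      intro h3
      exact h.prime.one_lt.ne' (by exact_mod_cast Int.eq_one_of_dvd_one (by positivity) h3)) hd
    rwa [one_mul] at h2)
  rwa [map_Ew] at h1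

lemma key (h : Loc p R) {r d ε : R} (hε : IsUnit ε) (he : r ^ 12 * d = (p : R) ^ 6 * ε)
    (hr : (p : R) ∣ r) : False := by
  obtain ⟨s, rfl⟩ := hr
  have hp0 : (p : R) ^ 6 ≠ 0 := pow_ne_zero _ h.unif.ne_zero
  have h1 : (p : R) ^ 6 * ((p : R) * ((p : R) ^ 5 * s ^ 12 * d)) = (p : R) ^ 6 * ε := by
    rw [← he]; ring
  have h2 := mul_left_cancel₀ hp0 h1
  exact h.unif.not_isUnit (isUnit_of_dvd_unit ⟨_, h2.symm⟩ hε)

/-- additive reduction of the twist -/
lemma additive (hA : StLocAdd) (h : Loc p R) (hp2 : p ≠ 2) (a b D : ℤ)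
    (hd : ¬ (p : ℤ) ∣ 4 * a ^ 3 + 27 * b ^ 2) (hD : (p : ℤ) ∣ D) (hD2 : ¬ (p : ℤ) ^ 2 ∣ D) :
    (Ew K (a * D ^ 2) (b * D ^ 3)).localPolynomial R = 1 := by
  apply hA p R K h
  intro V W₁ hV
  have hpR : Prime (p : R) := h.unif.prime
  have hinj : Function.Injective (algebraMap R K) := IsFractionRing.injective R K
  obtain ⟨D', rfl⟩ := hD
  have hD' : ¬ (p : ℤ) ∣ D' := by
    rintro ⟨c, rfl⟩
    exact hD2 ⟨c, by ring⟩
  have hpp : Prime (p : ℤ) := Nat.prime_iff_prime_int.1 h.prime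
  set ε : R := ((-16 * (D' ^ 6 * (4 * a ^ 3 + 27 * b ^ 2)) : ℤ) : R) with hεdef
  have hε : IsUnit ε := isUnit_int h (not_dvd_disc h hp2
    (fun h1 => hD' (hpp.dvd_of_dvd_pow h1)) hd)
  have hu : (V.u : K) ≠ 0 := V.u.ne_zero
  have hΔ : (V.u : K) ^ 12 * algebraMap R K W₁.Δ = algebraMap R K ((p : R) ^ 6 * ε) := by
    have h1 := congrArg WeierstrassCurve.Δ hV
    rw [variableChange_Δ, WeierstrassCurve.map_Δ, Ew_Δ] at h1
    rw [← h1, Units.val_inv_eq_inv_val, ← mul_assoc, inv_pow, mul_inv_cancel₀ (pow_ne_zero _ hu),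
      one_mul, hεdef]
    rw [map_mul, map_pow, map_natCast, map_intCast]
    push_cast
    ring
  have hc : (V.u : K) ^ 4 * algebraMap R K W₁.c₄ =
      algebraMap R K ((p : R) ^ 2 * ((-48 * (a * D' ^ 2) : ℤ) : R)) := by
    have h1 := congrArg WeierstrassCurve.c₄ hV
    rw [variableChange_c₄, WeierstrassCurve.map_c₄, Ew_c₄] at h1
    rw [← h1, Units.val_inv_eq_inv_val, ← mul_assoc, inv_pow, mul_inv_cancel₀ (pow_ne_zero _ hu),
      one_mul]
    rw [map_mul, map_pow, map_natCast, map_intCast]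
    push_cast
    ring
  -- if `u ^ n w = p^m c` with `w` a unit then `u` is in `R` and divisible by `p`
  have hint : ∀ (n m : ℕ) (w c : R), 0 < n → 0 < m → IsUnit w →
      (V.u : K) ^ n * algebraMap R K w = algebraMap R K ((p : R) ^ m * c) →
      ∃ r : R, algebraMap R K r = V.u ∧ (p : R) ∣ r := by
    intro n m w c hn hm hw he
    obtain ⟨w', rfl⟩ := hw
    have h1 : (V.u : K) ^ n = algebraMap R K ((p : R) ^ m * c * (w'⁻¹ : Rˣ)) := by
      rw [map_mul, ← he, mul_assoc, ← map_mul, Units.mul_inv, map_one, mul_one]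
    obtain ⟨r, hr⟩ := IsIntegrallyClosed.exists_algebraMap_eq_of_isIntegral_pow (R := R) hn
      (h1 ▸ isIntegral_algebraMap)
    refine ⟨r, hr, ?_⟩
    have h2 : r ^ n = (p : R) ^ m * c * (w'⁻¹ : Rˣ) := by
      apply hinj
      rw [map_pow, hr, h1]
    have h3 : (p : R) ∣ r ^ n := by
      rw [h2, mul_assoc]
      exact Dvd.dvd.mul_right (dvd_pow_self _ hm.ne') _
    exact hpR.dvd_of_dvd_pow h3
  constructor
  · intro hw
    obtain ⟨r, hr, hpr⟩ := hint 12 6 _ _ (by norm_num) (by norm_num) hw hΔ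
    refine key h hε (r := r) (d := W₁.Δ) ?_ hpr
    apply hinj
    rw [← hΔ, map_mul, map_pow, hr]
  · intro hw
    obtain ⟨r, hr, hpr⟩ := hint 4 2 _ _ (by norm_num) (by norm_num) hw hc
    refine key h hε (r := r) (d := W₁.Δ) ?_ hpr
    apply hinj
    rw [← hΔ, map_mul, map_pow, hr]

end main

lemma fund_not_sq {D : ℤ} (hD : Fund1 D) {p : ℕ} (hp : p.Prime) (hp2 : p ≠ 2) :
    ¬ (p : ℤ) ^ 2 ∣ D := by
  have hpp : Prime (p : ℤ) := Nat.prime_iff_prime_int.1 hp
  have hsf : ∀ d : ℤ, Squarefree d → ¬ (p : ℤ) ^ 2 ∣ d := by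
    intro d hd h
    have := hd (p : ℤ) (by rwa [← sq])
    exact hpp.not_isUnit this
  rcases hD with rfl | ⟨-, ⟨-, h⟩ | ⟨d, rfl, -, h⟩⟩
  · exact hsf 1 squarefree_one
  · exact hsf D h
  · intro h1
    have hc : IsCoprime ((p : ℤ) ^ 2) 4 := by
      have : (4 : ℤ) = 2 ^ 2 := by norm_num
      rw [this]
      apply IsCoprime.pow
      rw [← Nat.cast_ofNat (R := ℤ) (n := 2), Nat.isCoprime_iff_coprime]
      exact (Nat.coprime_primes hp Nat.prime_two).2 hp2
    exact hsf d h (hc.dvd_of_dvd_mul_left h1)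

/-- Module MLG. -/
theorem pfMLG (hG : StLocGood) (hA : StLocAdd) (hSh : StLocShape) (hL : StLoc) (hE : StEul) :
    StMLG := by
  intro a b hd D hD
  have hlocP : ∀ (a b : ℤ) (p : ℕ) (hp : p.Prime), locP a b p hp =
      (Ew ((pl p hp).adicCompletion ℚ) a b).localPolynomial ((pl p hp).adicCompletionIntegers ℚ) := by
    intro a b p hp
    unfold locP
    rw [Ec_map]
  have hbd : ∀ p : ℕ, p.Prime → ¬ p ∣ bdE a b → p ≠ 2 ∧ ¬ (p : ℤ) ∣ 4 * a ^ 3 + 27 * b ^ 2 := by
    intro p hp h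
    refine ⟨?_, ?_⟩
    · rintro rfl
      exact h (Dvd.intro _ rfl)
    · intro h1
      exact h (Dvd.dvd.mul_left (Int.natCast_dvd.1 h1) _)
  refine ⟨?_, ?_, ?_⟩
  · intro hH
    obtain ⟨e0, e1, e2, e3⟩ := hE (a * D ^ 2) (b * D ^ 3)
    refine ⟨e0, e1, e2, fun p hp => ?_⟩
    obtain ⟨f1, f2, f3, f4⟩ := e3 p hp
    rcases hSh p _ _ (hL p hp) (Ew ((pl p hp).adicCompletion ℚ) (a * D ^ 2) (b * D ^ 3)) with
      ⟨t, h⟩ | h | h | h
    · rw [← hlocP] at h
      exact Or.inl ⟨(f4 t h).2, hH p hp⟩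
    · rw [← hlocP] at h
      have h1 := f2 h
      right
      have h2 := h1 1
      rw [pow_one] at h2
      refine ⟨fun k => by rw [h1, h1, h2, one_mul], by rw [h2]; simp⟩
    · rw [← hlocP] at h
      have h1 := f3 h
      right
      have h2 := h1 1
      rw [pow_one, pow_one] at h2
      refine ⟨fun k => by rw [h1, h1, h2]; ring, by rw [h2]; simp⟩
    · rw [← hlocP] at h
      have h1 := f1 h
      right
      have h2 := h1 0
      rw [zero_add, pow_one] at h2
      refine ⟨fun k => by rw [h1, h2, zero_mul], by rw [h2]; simp⟩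
  · intro p hp h
    obtain ⟨hp2, hpd⟩ := hbd p hp h
    obtain ⟨-, -, -, e3⟩ := hE a b
    obtain ⟨-, -, -, f4⟩ := e3 p hp
    have h1 := good (K := (pl p hp).adicCompletion ℚ) hG (hL p hp) hp2 a b hpd
    rw [← hlocP] at h1
    exact (f4 _ h1).2
  · obtain ⟨e0, e1, e2, e3⟩ := hE a b
    obtain ⟨e0', e1', e2', e3'⟩ := hE (a * D ^ 2) (b * D ^ 3)
    have hprime : ∀ p : ℕ, p.Prime → ¬ p ∣ bdE a b → ∀ k : ℕ,
        LA (a * D ^ 2) (b * D ^ 3) (p ^ k) = LA a b (p ^ k) * jacobiSym D (p ^ k) := by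
      intro p hp h
      have hNZ : NeZero p := ⟨hp.ne_zero⟩
      obtain ⟨hp2, hpd⟩ := hbd p hp h
      obtain ⟨-, -, -, f4⟩ := e3 p hp
      obtain ⟨f1', -, -, f4'⟩ := e3' p hp
      have hpp : Prime (p : ℤ) := Nat.prime_iff_prime_int.1 hp
      have hLp := hL p hp
      have h1 := good (K := (pl p hp).adicCompletion ℚ) hG hLp hp2 a b hpd
      rw [← hlocP] at h1
      obtain ⟨g1, g2⟩ := f4 _ h1
      by_cases hpD : (p : ℤ) ∣ D
      · have h2 := additive (K := (pl p hp).adicCompletion ℚ) hA hLp hp2 a b D hpd hpD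
          (fund_not_sq hD hp hp2)
        rw [← hlocP] at h2
        have h3 := f1' h2
        have h4 : jacobiSym D p = 0 := by
          rw [jacobiSym.eq_zero_iff_not_coprime]
          intro h5
          have h6 : (p : ℤ) ∣ (Int.gcd D p : ℤ) := Int.dvd_coe_gcd hpD dvd_rfl
          rw [h5] at h6
          exact hpp.not_isUnit (isUnit_of_dvd_one (by simpa using h6))
        intro k
        cases k with
        | zero => simp [e1, e1']
        | succ k => rw [h3 k, jacobiSym.pow_right, h4]; simp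
      · have hk : Nat.card (IsLocalRing.ResidueField ((pl p hp).adicCompletionIntegers ℚ)) = p :=
          hLp.card
        have hd' : ¬ (p : ℤ) ∣ 4 * (a * D ^ 2) ^ 3 + 27 * (b * D ^ 3) ^ 2 := by
          have e : 4 * (a * D ^ 2) ^ 3 + 27 * (b * D ^ 3) ^ 2 =
              D ^ 6 * (4 * a ^ 3 + 27 * b ^ 2) := by ring
          rw [e]
          intro h5
          rcases hpp.dvd_or_dvd h5 with h6 | h6
          · exact hpD (hpp.dvd_of_dvd_pow h6)
          · exact hpd h6
        have h2 := good (K := (pl p hp).adicCompletion ℚ) hG hLp hp2 _ _ hd'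
        rw [← hlocP] at h2
        obtain ⟨g1', g2'⟩ := f4' _ h2
        have hDk : ((D : ℤ) : IsLocalRing.ResidueField ((pl p hp).adicCompletionIntegers ℚ)) ≠ 0 := by
          have h5 := isUnit_int hLp hpD
          have h6 := h5.map (IsLocalRing.residue ((pl p hp).adicCompletionIntegers ℚ))
          rw [map_intCast] at h6
          exact h6.ne_zero
        have h7 := tr_twist hp hp2 hk a b D hDk
        rw [← g1', ← g1] at h7
        have hsq : jacobiSym D p ^ 2 = 1 := by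
          apply jacobiSym.sq_one
          rw [Int.gcd_comm]
          exact Int.isCoprime_iff_gcd_eq_one.1 ((Prime.coprime_iff_not_dvd hpp).2 hpD)
        have h8 : ∀ k : ℕ, LA (a * D ^ 2) (b * D ^ 3) (p ^ k) =
            LA a b (p ^ k) * jacobiSym D (p ^ k) ∧
            LA (a * D ^ 2) (b * D ^ 3) (p ^ (k + 1)) =
            LA a b (p ^ (k + 1)) * jacobiSym D (p ^ (k + 1)) := by
          intro k
          induction k with
          | zero =>
            refine ⟨by simp [e1, e1'], ?_⟩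
            rw [zero_add, pow_one, h7]
            ring
          | succ k ih =>
            refine ⟨ih.2, ?_⟩
            rw [g2' k, g2 k, ih.1, ih.2, h7]
            simp only [jacobiSym.pow_right]
            linear_combination ((p : ℤ) * LA a b (p ^ k) * jacobiSym D p ^ k) * hsq
        exact fun k => (h8 k).1
    intro n
    induction n using Nat.recOnPosPrimePosCoprime with
    | prime_pow p k hp hk =>
      intro hn
      apply hprime p hp
      intro h
      have : p ∣ 1 := by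
        rw [← hn]
        exact Nat.dvd_gcd (dvd_pow_self p hk.ne') h
      exact hp.one_lt.ne' (Nat.dvd_one.1 this)
    | zero =>
      intro hn
      rw [e0, e0', zero_mul]
    | one => intro _; rw [e1, e1']; simp
    | coprime m n hm hn hmn ihm ihn =>
      intro h
      have : NeZero m := ⟨by omega⟩
      have : NeZero n := ⟨by omega⟩
      rw [e2 m n hmn, e2' m n hmn, ihm (Nat.Coprime.coprime_mul_right h),
        ihn (Nat.Coprime.coprime_mul_left h), jacobiSym.mul_right]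
      ring

end MG
end ML
end P004G
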