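import Vale.Agent.P004G.D
import Vale.Agent.P004G.H1a
import Vale.Agent.P004.H3.Poi

/-!
# P004G/H3: Poisson summation with the weight `ah` for `n = g² q`, `q` odd and squarefree
-/

open Real MeasureTheory Set Filter Topology
open scoped ENNReal NumberTheorySymbols ArithmeticFunction.Moebius

namespace P004G.H3

export P004.H3 (chi_zero chi_one Gk_zero isSquare_iff sum_moebius_div rho_eq Off)

open P004 (gk_int gk_nonneg gk_le summable_Gk chi_bound)

/-- Poisson summation with the weight `ah`, for `n = g² q`. -/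
lemma pair_gen (hP : StPois) {g q : ℕ} (hg0 : g ≠ 0) (hq : Squarefree q)
    (hqp : Odd q) {H : ℝ} (hH : 0 < H) :
    ∑' h : ℤ, H1.ah H h * chi h (g * g * q) =
      H * ∑ d ∈ g.divisors, (μ d : ℝ) / (d * √(q : ℝ)) *
        ∑' j : ℤ, if (d : ℤ) ∣ j then chi j q * Gk (|(j : ℝ)| * H / ((d : ℝ) ^ 2 * q)) else 0 := by
  rw [← H1.integral_eq_tsum hH]
  have hq0 : q ≠ 0 := hq.ne_zero
  have hqpos : (0 : ℝ) < q := by exact_mod_cast Nat.pos_of_ne_zero hq0
  set F : ℤ → ℝ → ℝ := fun j x => ∑ d ∈ g.divisors, H * ((μ d : ℝ) / (d * √(q : ℝ))) *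
    (if (d : ℤ) ∣ j then chi j q * (x ^ 7 * rexp (-x) *
      rexp (-π * (|(j : ℝ)| * H / ((d : ℝ) ^ 2 * q)) ^ 2 / x ^ 16)) else 0) with hF
  have hint1 : ∀ (j : ℤ) (d : ℕ), IntegrableOn (fun x => H * ((μ d : ℝ) / (d * √(q : ℝ))) *
    (if (d : ℤ) ∣ j then chi j q * (x ^ 7 * rexp (-x) *
      rexp (-π * (|(j : ℝ)| * H / ((d : ℝ) ^ 2 * q)) ^ 2 / x ^ 16)) else 0)) (Ioi 0) := fun j d => by
    refine Integrable.const_mul ?_ _
    split_ifs
    · exact (gk_int _).const_mul _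
    · exact integrable_zero _ _ _
  have hval1 : ∀ (j : ℤ) (d : ℕ), ∫ x in Ioi (0 : ℝ), H * ((μ d : ℝ) / (d * √(q : ℝ))) *
    (if (d : ℤ) ∣ j then chi j q * (x ^ 7 * rexp (-x) *
      rexp (-π * (|(j : ℝ)| * H / ((d : ℝ) ^ 2 * q)) ^ 2 / x ^ 16)) else 0) =
      H * ((μ d : ℝ) / (d * √(q : ℝ))) *
      (if (d : ℤ) ∣ j then chi j q * Gk (|(j : ℝ)| * H / ((d : ℝ) ^ 2 * q)) else 0) := fun j d => by
    rw [integral_const_mul]
    congr 1
    split_ifs
    · rw [integral_const_mul]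
      rfl
    · simp
  have hint : ∀ j, IntegrableOn (F j) (Ioi 0) := fun j =>
    integrable_finsetSum _ fun d _ => hint1 j d
  have hval : ∀ j, ∫ x in Ioi (0 : ℝ), F j x = ∑ d ∈ g.divisors, H * ((μ d : ℝ) / (d * √(q : ℝ))) *
      (if (d : ℤ) ∣ j then chi j q * Gk (|(j : ℝ)| * H / ((d : ℝ) ^ 2 * q)) else 0) := fun j => by
    rw [hF, integral_finsetSum _ fun d _ => hint1 j d]
    exact Finset.sum_congr rfl fun d _ => hval1 j d
  have hsumd : ∀ d ∈ g.divisors, Summable fun j : ℤ => |H * ((μ d : ℝ) / (d * √(q : ℝ)))| *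
      Gk (|(j : ℝ)| * H / ((d : ℝ) ^ 2 * q)) := fun d hd => by
    have hdpos : (0 : ℝ) < d := by exact_mod_cast Nat.pos_of_mem_divisors hd
    refine ((summable_Gk (c := H / ((d : ℝ) ^ 2 * q)) (by positivity)).mul_left
      |H * ((μ d : ℝ) / (d * √(q : ℝ)))|).congr fun j => ?_
    rw [mul_div_assoc]
  have hnorm : Summable fun j => ∫ x in Ioi (0 : ℝ), ‖F j x‖ := by
    refine Summable.of_norm_bounded (summable_sum hsumd) fun j => ?_
    rw [Real.norm_of_nonneg (integral_nonneg fun _ => norm_nonneg _)]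
    have hG : ∀ d ∈ g.divisors, IntegrableOn (fun x : ℝ => |H * ((μ d : ℝ) / (d * √(q : ℝ)))| *
        (x ^ 7 * rexp (-x) * rexp (-π * (|(j : ℝ)| * H / ((d : ℝ) ^ 2 * q)) ^ 2 / x ^ 16)))
        (Ioi 0) := fun d _ => (gk_int _).const_mul _
    calc ∫ x in Ioi (0 : ℝ), ‖F j x‖ ≤ ∫ x in Ioi (0 : ℝ), ∑ d ∈ g.divisors,
          |H * ((μ d : ℝ) / (d * √(q : ℝ)))| * (x ^ 7 * rexp (-x) *
            rexp (-π * (|(j : ℝ)| * H / ((d : ℝ) ^ 2 * q)) ^ 2 / x ^ 16)) := by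
          refine setIntegral_mono_on (hint j).norm (integrable_finsetSum _ hG)
            measurableSet_Ioi fun x hx => ?_
          have hx' : (0 : ℝ) < x := hx
          refine (norm_sum_le _ _).trans (Finset.sum_le_sum fun d _ => ?_)
          rw [norm_mul, Real.norm_eq_abs]
          refine mul_le_mul_of_nonneg_left ?_ (abs_nonneg _)
          split_ifs
          · rw [norm_mul, Real.norm_eq_abs, Real.norm_of_nonneg (by positivity)]
            exact mul_le_of_le_one_left (by positivity) (chi_bound _ _)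
          · rw [norm_zero]
            positivity
      _ = _ := by
          rw [integral_finsetSum _ hG]
          exact Finset.sum_congr rfl fun d _ => by rw [integral_const_mul]; rfl
  have hmain := integral_tsum_of_summable_integral_norm hint hnorm
  rw [setIntegral_congr_fun measurableSet_Ioi (g := fun x => ∑' j, F j x)
    (fun x hx => P004.pair_pointG hP hg0 hq hqp hH hx), ← hmain]
  simp only [hval]
  have hsum2 : ∀ d ∈ g.divisors, Summable fun j : ℤ => H * ((μ d : ℝ) / (d * √(q : ℝ))) *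
      (if (d : ℤ) ∣ j then chi j q * Gk (|(j : ℝ)| * H / ((d : ℝ) ^ 2 * q)) else 0) := fun d hd => by
    refine Summable.of_norm_bounded (hsumd d hd) fun j => ?_
    rw [norm_mul, Real.norm_eq_abs]
    refine mul_le_mul_of_nonneg_left ?_ (abs_nonneg _)
    split_ifs
    · rw [norm_mul, Real.norm_eq_abs, Real.norm_of_nonneg (gk_nonneg _)]
      exact mul_le_of_le_one_left (gk_nonneg _) (chi_bound _ _)
    · rw [norm_zero]
      exact gk_nonneg _
  rw [Summable.tsum_finsetSum hsum2, Finset.mul_sum]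
  refine Finset.sum_congr rfl fun d _ => ?_
  rw [tsum_mul_left, mul_assoc]

lemma off_eq (hP : StPois) {g q : ℕ} (hg0 : g ≠ 0) (hq : Squarefree q)
    (hqp : Odd q) {H : ℝ} (hH : 0 < H) :
    Off H (g * g * q) = H * ∑' j : ℕ, ∑ d ∈ g.divisors, (μ d : ℝ) / (d * √(q : ℝ)) *
      (if d ∣ (j + 1) then (chi ((j + 1 : ℕ) : ℤ) q + chi (-((j + 1 : ℕ) : ℤ)) q) *
        Gk (((j + 1 : ℕ) : ℝ) * H / ((d : ℝ) ^ 2 * q)) else 0) := by
  have hq0 : q ≠ 0 := hq.ne_zero
  have hqpos : (0 : ℝ) < q := by exact_mod_cast Nat.pos_of_ne_zero hq0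
  unfold Off
  rw [pair_gen hP hg0 hq hqp hH, rho_eq hg0 hq]
  have hs : ∀ d ∈ g.divisors, Summable fun j : ℤ => (if (d : ℤ) ∣ j then chi j q *
      Gk (|(j : ℝ)| * H / ((d : ℝ) ^ 2 * q)) else 0) := fun d hd => by
    have hdpos : (0 : ℝ) < d := by exact_mod_cast Nat.pos_of_mem_divisors hd
    refine Summable.of_norm_bounded (summable_Gk (c := H / ((d : ℝ) ^ 2 * q)) (by positivity))
      fun j => ?_
    rw [mul_div_assoc]
    split_ifs
    · rw [norm_mul, Real.norm_eq_abs, Real.norm_of_nonneg (gk_nonneg _)]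
      exact mul_le_of_le_one_left (gk_nonneg _) (chi_bound _ _)
    · rw [norm_zero]
      exact gk_nonneg _
  have hf1 : ∀ (d : ℕ) (n : ℕ), (if (d : ℤ) ∣ ((n : ℤ) + 1) then chi ((n : ℤ) + 1) q *
      Gk (|(((n : ℤ) + 1 : ℤ) : ℝ)| * H / ((d : ℝ) ^ 2 * q)) else 0) =
      (if d ∣ (n + 1) then chi ((n + 1 : ℕ) : ℤ) q *
        Gk (((n + 1 : ℕ) : ℝ) * H / ((d : ℝ) ^ 2 * q)) else 0) := by
    intro d n
    have e1 : ((d : ℤ) ∣ (n : ℤ) + 1) ↔ d ∣ n + 1 := by
      rw [← Int.natCast_dvd_natCast]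
      push_cast
      rfl
    have e2 : |(((n : ℤ) + 1 : ℤ) : ℝ)| = ((n + 1 : ℕ) : ℝ) := by
      push_cast
      rw [abs_of_nonneg (by positivity)]
    simp only [e1, e2]
    push_cast
    rfl
  have hf2 : ∀ (d : ℕ) (n : ℕ), (if (d : ℤ) ∣ (-((n : ℤ) + 1)) then chi (-((n : ℤ) + 1)) q *
      Gk (|((-((n : ℤ) + 1) : ℤ) : ℝ)| * H / ((d : ℝ) ^ 2 * q)) else 0) =
      (if d ∣ (n + 1) then chi (-((n + 1 : ℕ) : ℤ)) q *
        Gk (((n + 1 : ℕ) : ℝ) * H / ((d : ℝ) ^ 2 * q)) else 0) := by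
    intro d n
    have e1 : ((d : ℤ) ∣ (-((n : ℤ) + 1))) ↔ d ∣ n + 1 := by
      rw [dvd_neg, ← Int.natCast_dvd_natCast]
      push_cast
      rfl
    have e2 : |((-((n : ℤ) + 1) : ℤ) : ℝ)| = ((n + 1 : ℕ) : ℝ) := by
      push_cast
      rw [abs_of_nonpos (by linarith [show (0 : ℝ) ≤ n from by positivity])]
      ring
    simp only [e1, e2]
    push_cast
    rfl
  have hs1 : ∀ d ∈ g.divisors, Summable fun n : ℕ => (if d ∣ (n + 1) then
      chi ((n + 1 : ℕ) : ℤ) q * Gk (((n + 1 : ℕ) : ℝ) * H / ((d : ℝ) ^ 2 * q)) else 0) := by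
    intro d hd
    have h5 : Summable fun n : ℕ => (fun j : ℤ => (if (d : ℤ) ∣ j then chi j q *
      Gk (|(j : ℝ)| * H / ((d : ℝ) ^ 2 * q)) else 0)) ((n : ℤ) + 1) := by
      refine (hs d hd).comp_injective (i := fun n : ℕ => (n : ℤ) + 1) ?_
      intro a b hab
      simpa using hab
    exact h5.congr fun n => hf1 d n
  have hs2 : ∀ d ∈ g.divisors, Summable fun n : ℕ => (if d ∣ (n + 1) then
      chi (-((n + 1 : ℕ) : ℤ)) q * Gk (((n + 1 : ℕ) : ℝ) * H / ((d : ℝ) ^ 2 * q)) else 0) := by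
    intro d hd
    have h5 : Summable fun n : ℕ => (fun j : ℤ => (if (d : ℤ) ∣ j then chi j q *
      Gk (|(j : ℝ)| * H / ((d : ℝ) ^ 2 * q)) else 0)) (-((n : ℤ) + 1)) := by
      refine (hs d hd).comp_injective (i := fun n : ℕ => -((n : ℤ) + 1)) ?_
      intro a b hab
      simp only [neg_inj, add_left_inj, Nat.cast_inj] at hab
      exact hab
    exact h5.congr fun n => hf2 d n
  have hadd : ∀ (d : ℕ) (n : ℕ), (if d ∣ (n + 1) then
      (chi ((n + 1 : ℕ) : ℤ) q + chi (-((n + 1 : ℕ) : ℤ)) q) *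
        Gk (((n + 1 : ℕ) : ℝ) * H / ((d : ℝ) ^ 2 * q)) else 0) =
      (if d ∣ (n + 1) then chi ((n + 1 : ℕ) : ℤ) q *
        Gk (((n + 1 : ℕ) : ℝ) * H / ((d : ℝ) ^ 2 * q)) else 0) +
      (if d ∣ (n + 1) then chi (-((n + 1 : ℕ) : ℤ)) q *
        Gk (((n + 1 : ℕ) : ℝ) * H / ((d : ℝ) ^ 2 * q)) else 0) := by
    intro d n
    split_ifs
    · ring
    · ring
  have key : ∀ d ∈ g.divisors, ∑' j : ℤ, (if (d : ℤ) ∣ j then chi j q *
      Gk (|(j : ℝ)| * H / ((d : ℝ) ^ 2 * q)) else 0) = chi 0 q * 5040 +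
      ∑' j : ℕ, (if d ∣ (j + 1) then (chi ((j + 1 : ℕ) : ℤ) q + chi (-((j + 1 : ℕ) : ℤ)) q) *
        Gk (((j + 1 : ℕ) : ℝ) * H / ((d : ℝ) ^ 2 * q)) else 0) := by
    intro d hd
    set f : ℤ → ℝ := fun j : ℤ => (if (d : ℤ) ∣ j then chi j q *
      Gk (|(j : ℝ)| * H / ((d : ℝ) ^ 2 * q)) else 0) with hf
    have hsum := hs d hd
    have h2 : f 0 = chi 0 q * 5040 := by
      simp only [hf]
      rw [if_pos (dvd_zero _)]
      simp [Gk_zero]
    have hs3 : Summable fun n : ℕ => f (n : ℤ) :=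
      hsum.comp_injective Nat.cast_injective
    have hs4 : Summable fun n : ℕ => f (-((n : ℤ) + 1)) := by
      refine hsum.comp_injective (i := fun n : ℕ => -((n : ℤ) + 1)) ?_
      intro a b hab
      simp only [neg_inj, add_left_inj, Nat.cast_inj] at hab
      exact hab
    rw [tsum_of_nat_of_neg_add_one hs3 hs4, hs3.tsum_eq_zero_add]
    have h4 : ∑' n : ℕ, f (((n + 1 : ℕ) : ℤ)) = ∑' n : ℕ, f ((n : ℤ) + 1) := by
      refine tsum_congr fun n => ?_
      push_cast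
      rfl
    rw [h4, tsum_congr (hf1 d), tsum_congr (hf2 d)]
    have : f ((0 : ℕ) : ℤ) = f 0 := rfl
    rw [this, h2, add_assoc, ← (hs1 d hd).tsum_add (hs2 d hd), tsum_congr (hadd d)]
  rw [Summable.tsum_finsetSum]
  · rw [Finset.sum_congr rfl fun d hd => by rw [key d hd]]
    simp only [tsum_mul_left, mul_add, Finset.sum_add_distrib]
    rw [Finset.mul_sum, Finset.mul_sum, Finset.mul_sum]
    have e : ∀ A B C : ℝ, A = C → A + B - C = B := fun A B C h => by rw [h]; ring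
    rw [e]
    refine Finset.sum_congr rfl fun d _ => ?_
    ring
  · intro d hd
    refine Summable.mul_left _ ?_
    simp only [hadd]
    exact (hs1 d hd).add (hs2 d hd)

end P004G.H3
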