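import Vale.Agent.P004G.H1
import Vale.Agent.P004G.H3.Poi
import Vale.Agent.P004G.H3.SumGk
import Vale.Agent.P004G.H3.FnSer
import Vale.Agent.P004.H3.Tw0

/-!
# P004G/H3: module T0, the mean value of one character
-/

open Real MeasureTheory Set
open scoped ENNReal ArithmeticFunction.Moebius

namespace P004G.H3

export P004.H3 (tsum_dvd summable_dvd)

open P004 (gk_nonneg)


/-- decomposition of an odd number -/
theorem odd_decomp {ν : ℕ} (h : Odd ν) : ∃ g q : ℕ, g ≠ 0 ∧ Squarefree q ∧ g * g * q = ν ∧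
    Odd q := by
  obtain ⟨a, b, hab, hsq⟩ := Nat.sq_mul_squarefree ν
  -- `b ^ 2 * a = ν`
  have hν : ν ≠ 0 := by
    rintro rfl
    simp at h
  have hb0 : b ≠ 0 := by
    rintro rfl
    apply hν
    rw [← hab]; ring
  refine ⟨b, a, hb0, hsq, by rw [← hab]; ring, ?_⟩
  rw [← hab] at h
  exact (Nat.odd_mul.1 h).2

/-- decomposition of a good number -/
theorem good_decomp [Crv] {ν : ℕ} (h : Good ν) : ∃ g q : ℕ, g ≠ 0 ∧ Squarefree q ∧
    g * g * q = ν ∧ Good q := by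
  obtain ⟨g, q, h1, h2, h3, -⟩ := odd_decomp h.odd
  exact ⟨g, q, h1, h2, h3, h.of_dvd ⟨g * g, by rw [← h3]; ring⟩⟩

/-- the error term for `n = g² q` -/
theorem off_le (hP : StPois) (hK : StKer) : ∃ C : ℝ, 0 < C ∧ ∀ (g q : ℕ) (H : ℝ), g ≠ 0 →
    Squarefree q → Odd q → 0 < H →
    |Off H (g * g * q)| ≤ C * (√(q : ℝ) * dv g) := by
  obtain ⟨C, hC, h⟩ := sum_Gk hK
  refine ⟨2 * C, by positivity, fun g q H hg hq hqp hH => ?_⟩
  have hq0 : (0 : ℝ) < q := by exact_mod_cast Nat.pos_of_ne_zero hq.ne_zero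
  have hsq : 0 < √(q : ℝ) := Real.sqrt_pos.2 hq0
  rw [off_eq hP hg hq hqp hH]
  have hch : ∀ j : ℕ, |chi ((j + 1 : ℕ) : ℤ) q + chi (-((j + 1 : ℕ) : ℤ)) q| ≤ 2 := fun j => by
    have h1 := abs_chi_le ((j + 1 : ℕ) : ℤ) q
    have h2 := abs_chi_le (-((j + 1 : ℕ) : ℤ)) q
    calc _ ≤ |chi ((j + 1 : ℕ) : ℤ) q| + |chi (-((j + 1 : ℕ) : ℤ)) q| := abs_add_le _ _
      _ ≤ 2 := by linarith
  have hsumm : ∀ d ∈ g.divisors, Summable fun j : ℕ => (μ d : ℝ) / (d * √(q : ℝ)) *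
      (if d ∣ (j + 1) then (chi ((j + 1 : ℕ) : ℤ) q + chi (-((j + 1 : ℕ) : ℤ)) q) *
        Gk (((j + 1 : ℕ) : ℝ) * H / ((d : ℝ) ^ 2 * q)) else 0) := by
    intro d hd
    have hd0 : 0 < d := Nat.pos_of_mem_divisors hd
    have hdR : (0 : ℝ) < d := by exact_mod_cast hd0
    refine Summable.mul_left _ ?_
    refine Summable.of_norm_bounded ((summable_dvd hK hd0 (c := H / (d * q))
      (by positivity)).mul_left 2) fun j => ?_
    split_ifs
    · rw [norm_mul, Real.norm_eq_abs, Real.norm_of_nonneg (gk_nonneg _)]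
      refine (mul_le_mul_of_nonneg_right (hch j) (gk_nonneg _)).trans (le_of_eq ?_)
      congr 2
      field_simp
    · simp
  rw [Summable.tsum_finsetSum hsumm, abs_mul, abs_of_pos hH]
  have hone : ∀ d ∈ g.divisors, |∑' j : ℕ, (μ d : ℝ) / (d * √(q : ℝ)) *
      (if d ∣ (j + 1) then (chi ((j + 1 : ℕ) : ℤ) q + chi (-((j + 1 : ℕ) : ℤ)) q) *
        Gk (((j + 1 : ℕ) : ℝ) * H / ((d : ℝ) ^ 2 * q)) else 0)| ≤ 2 * C * √(q : ℝ) / H := by
    intro d hd
    have hd0 : 0 < d := Nat.pos_of_mem_divisors hd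
    have hdR : (0 : ℝ) < d := by exact_mod_cast hd0
    rw [tsum_mul_left, abs_mul]
    have h1 : |(μ d : ℝ) / (d * √(q : ℝ))| ≤ 1 / (d * √(q : ℝ)) := by
      rw [abs_div, abs_of_pos (show 0 < (d : ℝ) * √(q : ℝ) by positivity)]
      gcongr
      exact H1.abs_moebius_le d
    have h2 : |∑' j : ℕ, (if d ∣ (j + 1) then (chi ((j + 1 : ℕ) : ℤ) q + chi (-((j + 1 : ℕ) : ℤ)) q) *
        Gk (((j + 1 : ℕ) : ℝ) * H / ((d : ℝ) ^ 2 * q)) else 0)| ≤ 2 * (C / (H / (d * q))) := by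
      have hs := summable_dvd hK hd0 (c := H / (d * q)) (by positivity)
      have h3 : ‖∑' j : ℕ, (if d ∣ (j + 1) then (chi ((j + 1 : ℕ) : ℤ) q + chi (-((j + 1 : ℕ) : ℤ)) q) *
          Gk (((j + 1 : ℕ) : ℝ) * H / ((d : ℝ) ^ 2 * q)) else 0)‖ ≤
          ∑' j : ℕ, 2 * (if d ∣ (j + 1) then Gk (((j + 1 : ℕ) : ℝ) * (H / (d * q)) / d) else 0) := by
        refine tsum_of_norm_bounded (hs.mul_left 2).hasSum fun j => ?_
        split_ifs
        · rw [norm_mul, Real.norm_eq_abs, Real.norm_of_nonneg (gk_nonneg _)]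
          refine (mul_le_mul_of_nonneg_right (hch j) (gk_nonneg _)).trans (le_of_eq ?_)
          congr 2
          field_simp
        · simp
      rw [Real.norm_eq_abs, tsum_mul_left, tsum_dvd hd0] at h3
      exact h3.trans (mul_le_mul_of_nonneg_left (h _ (by positivity)).2 (by norm_num))
    calc _ ≤ 1 / (d * √(q : ℝ)) * (2 * (C / (H / (d * q)))) :=
          mul_le_mul h1 h2 (abs_nonneg _) (by positivity)
      _ = 2 * C * (q / √(q : ℝ)) / H := by field_simp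
      _ = 2 * C * √(q : ℝ) / H := by rw [Real.div_sqrt]
  calc H * |∑ d ∈ g.divisors, ∑' j : ℕ, (μ d : ℝ) / (d * √(q : ℝ)) *
      (if d ∣ (j + 1) then (chi ((j + 1 : ℕ) : ℤ) q + chi (-((j + 1 : ℕ) : ℤ)) q) *
        Gk (((j + 1 : ℕ) : ℝ) * H / ((d : ℝ) ^ 2 * q)) else 0)|
      ≤ H * ∑ d ∈ g.divisors, 2 * C * √(q : ℝ) / H := by
        gcongr
        exact (Finset.abs_sum_le_sum_abs _ _).trans (Finset.sum_le_sum hone)
    _ = 2 * C * (√(q : ℝ) * dv g) := by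
        rw [Finset.sum_const, nsmul_eq_mul]
        unfold dv
        field_simp

/-- Module T0. -/
theorem pfTw0_of [Crv] (hP : StPois) (hK : StKer) : StTw0 := by
  obtain ⟨C, hC, h⟩ := off_le hP hK
  refine ⟨max 1 C, le_max_left _ _, fun H ν hH hν => ?_⟩
  obtain ⟨g, q, hg, hq, hgq, hqp⟩ := good_decomp hν
  have hνR : (0 : ℝ) < ν := by exact_mod_cast Nat.pos_of_ne_zero hν.1
  have h1 := h g q H hg hq hqp.odd (by linarith)
  rw [hgq] at h1
  have hEh : Eh H ν = Off H ν := rfl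
  rw [hEh]
  refine h1.trans ?_
  have hg1 : (1 : ℝ) ≤ g := by exact_mod_cast Nat.one_le_iff_ne_zero.2 hg
  have h2 : √(q : ℝ) ≤ √(ν : ℝ) := by
    apply Real.sqrt_le_sqrt
    rw [← hgq]
    push_cast
    have hq0 : (0 : ℝ) ≤ q := by positivity
    nlinarith [mul_le_mul hg1 hg1 (by norm_num) (by linarith)]
  have h3 : dv g ≤ dv ν := dv_le_of_dvd hν.1 ⟨g * q, by rw [← hgq]; ring⟩
  have h4 := dv_nonneg g
  have h5 := dv_nonneg ν
  calc C * (√(q : ℝ) * dv g) ≤ C * (√(ν : ℝ) * dv ν) := by gcongr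
    _ ≤ max 1 C * (√(ν : ℝ) * dv ν) := by
        gcongr
        exact le_max_right _ _

end P004G.H3
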